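import Vale.Agent.P097.H402.StepP

/-! # P097 / Theorem A, assembly: the converse, and the equivalence -/

set_option linter.all false

namespace Vale.Agent.P097.H402

open Set Filter Topology Vale.Agent.P097 Vale.Agent.P097.TA Vale.Agent.P097.H407 Vale.Agent.P097.TOP
open Vale.Agent.P097.Reg

theorem intBd_pos {ε : ℝ} {Φ : ℝ × ℝ → ℝ × ℝ} {h : ℝ → ℝ}
    (hev : ∀ x w : ℝ, |w| < ε → Φ (x, -w) = ((Φ (x, w)).1, -(Φ (x, w)).2))
    (hgr : ∀ w : ℝ, 0 < w → w < ε → ∃ f : ℝ → ℝ, InvGraph h f ∧ (∀ x, AnalyticAt ℝ f x) ∧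
      ∀ x, f (Φ (x, w)).1 = (Φ (x, w)).2) {x w : ℝ} (hw : |w| < ε) (hpos : 0 < (Φ (x, w)).2) :
    0 < w := by
  by_contra hcon
  push Not at hcon
  rcases eq_or_lt_of_le hcon with h0 | h0
  · subst h0
    have := hev x 0 (by simpa using hw)
    rw [neg_zero] at this
    have h1 := congrArg Prod.snd this
    simp only at h1
    linarith
  · have hw' : -w < ε := by rwa [abs_of_neg h0] at hw
    obtain ⟨f, hf, -, hff⟩ := hgr (-w) (by linarith) hw'
    have h1 := hff x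
    rw [hev x w hw] at h1
    simp only at h1
    have h2 := (hf.2.2.1 (Φ (x, w)).1).1
    linarith

/-- analytic integrability up to the boundary gives the collar -/
theorem collar_of_intBd {h : ℝ → ℝ} (hI : IntBd h) : ∃ η : ℝ, 0 < η ∧ Collar h η := by
  obtain ⟨ε, η, Φ, J, hε, hη, -, -, hJ1, hJ2, hper, hev, hstep, hgr, huniq⟩ := hI
  refine ⟨η, hη, ?_⟩
  intro ψ δ h0 h1
  obtain ⟨h2, h3⟩ := hJ1 (ψ, δ) (by simpa [abs_of_pos h0] using h1)
  obtain ⟨x, w, hJ⟩ : ∃ x w : ℝ, J (ψ, δ) = (x, w) := ⟨_, _, rfl⟩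
  rw [hJ] at h2 h3
  have hw : |w| < ε := h2
  have hwp : 0 < w := intBd_pos hev hgr hw (x := x) (by rw [h3]; exact h0)
  obtain ⟨f, hf, -, hff⟩ := hgr w hwp (lt_of_abs_lt hw)
  refine ⟨f, hf, ?_⟩
  have := hff x
  rw [h3] at this
  exact this

theorem fst_surj {ε : ℝ} {Φ : ℝ × ℝ → ℝ × ℝ} (hΦ : AnalyticOnNhd ℝ Φ {q | |q.2| < ε})
    (hper : ∀ x w : ℝ, |w| < ε → Φ (x + 1, w) = ((Φ (x, w)).1 + 2 * Real.pi, (Φ (x, w)).2))
    {w : ℝ} (hw : |w| < ε) (y : ℝ) : ∃ x, (Φ (x, w)).1 = y := by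
  have hcont : Continuous (fun x : ℝ => (Φ (x, w)).1) := by
    rw [continuous_iff_continuousAt]
    intro x
    have h1 : ContinuousAt Φ (x, w) := (hΦ (x, w) hw).continuousAt
    have h2 : ContinuousAt (fun x : ℝ => (x, w)) x := by fun_prop
    have h3 : ContinuousAt (fun x : ℝ => Φ (x, w)) x :=
      ContinuousAt.comp (g := Φ) (f := fun x : ℝ => (x, w)) h1 h2
    exact h3.fst
  have hper1 : ∀ x, (Φ (x + 1, w)).1 = (Φ (x, w)).1 + 2 * Real.pi := fun x => by rw [hper x w hw]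
  have hup : ∀ n : ℕ, (Φ ((n : ℝ), w)).1 = (Φ (0, w)).1 + n * (2 * Real.pi) := by
    intro n
    induction n with
    | zero => simp
    | succ n ih =>
      push_cast
      rw [hper1, ih]
      ring
  have hdn : ∀ n : ℕ, (Φ (-(n : ℝ), w)).1 = (Φ (0, w)).1 - n * (2 * Real.pi) := by
    intro n
    induction n with
    | zero => simp
    | succ n ih =>
      have := hper1 (-((n + 1 : ℕ) : ℝ))
      have e1 : -((n + 1 : ℕ) : ℝ) + 1 = -(n : ℝ) := by push_cast; ring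
      rw [e1, ih] at this
      have e2 : ((n + 1 : ℕ) : ℝ) * (2 * Real.pi) = n * (2 * Real.pi) + 2 * Real.pi := by
        push_cast; ring
      rw [e2]
      linarith
  have hpi := Real.pi_pos
  obtain ⟨n, hn⟩ := exists_nat_gt (|y - (Φ (0, w)).1| / (2 * Real.pi))
  rw [div_lt_iff₀ (by positivity)] at hn
  have h1 := abs_lt.1 hn
  have hmem : y ∈ Icc ((Φ (-(n : ℝ), w)).1) ((Φ ((n : ℝ), w)).1) := by
    rw [hup, hdn]
    constructor <;> linarith [h1.1, h1.2]
  obtain ⟨x, -, hx⟩ := intermediate_value_Icc (f := fun x : ℝ => (Φ (x, w)).1)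
    (show -(n : ℝ) ≤ n by
      have : (0 : ℝ) ≤ n := n.cast_nonneg
      linarith) hcont.continuousOn hmem
  exact ⟨x, hx⟩

/-- analytic integrability up to the boundary gives all the rational leaves -/
theorem leaves_of_intBd {h : ℝ → ℝ} (Ht : IsTable h) (hI : IntBd h) :
    ∃ η : ℝ, 0 < η ∧ Leaves h η := by
  obtain ⟨ε, η, Φ, J, hε, hη, hΦ, -, hJ1, hJ2, hper, hev, hstep, hgr, huniq⟩ := hI
  refine ⟨ε, hε, ?_⟩
  intro p n hp hn hcop hlt
  have hp0 : (0 : ℝ) < p := by exact_mod_cast hp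
  have hn0 : (0 : ℝ) < n := by exact_mod_cast hn
  set w : ℝ := (p : ℝ) / n with hw
  have hw0 : 0 < w := by positivity
  have hwa : |w| < ε := by rw [abs_of_pos hw0]; exact hlt
  obtain ⟨f, hf, -, hff⟩ := hgr w hw0 hlt
  refine ⟨f, hf, ?_⟩
  intro x hx
  obtain ⟨t, ht⟩ := fst_surj hΦ hper hwa (x 0)
  have hx' : ∀ j : ℕ, x j = (Φ (t + j * w, w)).1 := by
    intro j
    induction j with
    | zero => simpa using ht.symm
    | succ j ih =>
      have s1 := hstep (t + j * w) w hw0 hlt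
      have s2 := hx j
      rw [← hff, ← ih] at s1
      have := Step.unique Ht.adm s2 s1
      have e2 : t + ((j + 1 : ℕ) : ℝ) * w = t + j * w + w := by
        push_cast
        ring
      rw [this, e2]
  have hP : ∀ k : ℕ, (Φ (t + k, w)).1 = (Φ (t, w)).1 + 2 * Real.pi * k := by
    intro k
    induction k with
    | zero => simp
    | succ k ih =>
      push_cast
      rw [← add_assoc, hper _ _ hwa]
      simp only
      rw [ih]
      ring
  have e1 : (n : ℝ) * w = p := by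
    rw [hw]
    field_simp
  rw [hx' n, e1, hP p, ht]

/-- **The three notions of integrability near the boundary agree.** -/
theorem equivalence {h : ℝ → ℝ} (H : SmoothTable h) :
    ((∃ η : ℝ, 0 < η ∧ Collar h η) ↔ (∃ η : ℝ, 0 < η ∧ Leaves h η)) ∧
    ((∃ η : ℝ, 0 < η ∧ Collar h η) ↔ (IsTable h ∧ IntBd h)) := by
  have hpi := Real.pi_pos
  have key : ∀ η : ℝ, 0 < η → (Collar h η ∨ Leaves h (η / Real.pi)) → IsTable h ∧ IntBd h :=
    fun η hη hL => main_of famEx H hη hL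
  have k1 : (∃ η : ℝ, 0 < η ∧ Collar h η) → IsTable h ∧ IntBd h := by
    rintro ⟨η, hη, hC⟩
    exact key η hη (Or.inl hC)
  have k2 : (∃ η : ℝ, 0 < η ∧ Leaves h η) → IsTable h ∧ IntBd h := by
    rintro ⟨η, hη, hC⟩
    refine key (η * Real.pi) (by positivity) (Or.inr ?_)
    have e : η * Real.pi / Real.pi = η := by field_simp
    rw [e]
    exact hC
  refine ⟨⟨fun hC => ?_, fun hL => ?_⟩, ⟨k1, fun hI => collar_of_intBd hI.2⟩⟩
  · obtain ⟨Ht, hI⟩ := k1 hC
    exact leaves_of_intBd Ht hI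
  · exact collar_of_intBd (k2 hL).2

end Vale.Agent.P097.H402
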