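import Vale.Agent.P097.H402.LMap
import Vale.Agent.P097.H202.Dict
import Vale.Agent.P097.H202.CTab
import Vale.Agent.P097.H799.Sym

/-!
# P097 / Theorem A: the rational leaves of a table, in the language of the generating function
-/

set_option linter.all false

open Complex Metric Filter Topology Set

namespace Vale.Agent.P097.H402

open Vale.Agent.P097.TA Vale.Agent.P097.H202


/-- the rational leaves of the table, as maps in the normalised Lazutkin coordinate -/
theorem exists_LeafMap {h : ℝ → ℝ} {κ ρ Λ L : ℝ} {H HH lam Φ : ℂ → ℂ} {l φ : ℝ → ℝ}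
    (T : LD h κ ρ Λ L H HH lam Φ l φ) {ρ' : ℝ} (hρ' : 0 < ρ') {b : ℂ → ℂ → ℂ}
    (hb : IsGen ρ Λ H HH Φ ρ' b) {η : ℝ} (hη : 0 < η)
    (hL : Collar h η ∨
      ∀ n p : ℕ, 0 < n → 0 < p → Real.pi * p / n < η → ∃ f, PV.RatLeafP h n p f) :
    ∃ η' CH : ℝ, 0 < η' ∧ 1 ≤ CH ∧ LeafMap b η' CH := by
  obtain ⟨M, β, C, -, -, -, -, hC, hz⟩ := T.exists_ctab
  obtain ⟨η', CH, hη', hCH, hf⟩ := leafMap C T.tab.adm hC hη hL
  have hCH0 : 0 < CH := by linarith
  refine ⟨min η' (ρ' / CH), CH, lt_min hη' (by positivity), hCH, ?_⟩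
  intro n p hn hp hlt
  obtain ⟨f, g, hm, fg, gf, hit, hgap, hK⟩ := hf n p hn hp (hlt.trans_le (min_le_left _ _))
  have hs : CH * ((p : ℝ) / n) < ρ' := by
    have := hlt.trans_le (min_le_right _ _)
    rw [lt_div_iff₀ hCH0] at this
    linarith
  refine ⟨f, g, hm, fg, gf, hit, fun y => ⟨(hgap y).1, (hgap y).2.1⟩, fun y => ?_⟩
  have h1 := hgap (g y)
  rw [fg] at h1
  have h2 := hgap y
  rw [EL_real_iff T hρ' hb (by rw [abs_of_pos h1.1]; exact h1.2.1.trans_lt hs)
    (by rw [abs_of_pos h2.1]; exact h2.2.1.trans_lt hs)]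
  have := hK y
  have e : ∀ y : ℝ, tr C y = φ y := fun y => by rw [tr, ofReal_mul, hz, ofReal_re]
  simp only [e] at this
  exact this

end Vale.Agent.P097.H402
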