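import Vale.Agent.P097.H402.RealB
import Vale.Agent.P097.H402.LM
import Vale.Agent.P097.H407.Rat2

/-! # P097 / Theorem A, assembly: the main statement, from the existence of the family -/

set_option linter.all false

namespace Vale.Agent.P097.H402

open Set Filter Topology Vale.Agent.P097 Vale.Agent.P097.TA Vale.Agent.P097.H202 Vale.Agent.P097.H407
open scoped ComplexConjugate

/-- the output of the Newton iteration -/
def FamEx : Prop := ∀ (ρ M η CH : ℝ) (b : ℂ → ℂ → ℂ), Gen ρ M b → 0 < η → 1 ≤ CH →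
  LeafMap b η CH → ∃ (L r e : ℝ) (θ : ℂ → ℂ → ℂ), Fam b L r e θ

/-- all rational leaves, from the ones in lowest terms -/
theorem leaves_all {h : ℝ → ℝ} {η : ℝ} (R : Leaves h (η / Real.pi)) :
    ∀ n p : ℕ, 0 < n → 0 < p → Real.pi * p / n < η → ∃ f, PV.RatLeafP h n p f := by
  have hpi0 := Real.pi_pos
  intro n p hn hp hlt
  have hg : 0 < Nat.gcd p n := Nat.gcd_pos_of_pos_left _ hp
  obtain ⟨p', hp'⟩ := Nat.gcd_dvd_left p n
  obtain ⟨n', hn'⟩ := Nat.gcd_dvd_right p n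
  have hp0 : 0 < p' := Nat.pos_of_ne_zero (by rintro rfl; simp at hp'; omega)
  have hn0 : 0 < n' := Nat.pos_of_ne_zero (by rintro rfl; simp at hn'; omega)
  have hcop : Nat.Coprime p' n' := by
    have h1 := Nat.coprime_div_gcd_div_gcd hg
    have e1 : p / Nat.gcd p n = p' := by
      conv_lhs => rw [hp']
      rw [← hp']
      exact Nat.div_eq_of_eq_mul_right hg hp'
    have e2 : n / Nat.gcd p n = n' := Nat.div_eq_of_eq_mul_right hg hn'
    rwa [e1, e2] at h1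
  have hlt' : (p' : ℝ) / n' < η / Real.pi := by
    rw [lt_div_iff₀ hpi0]
    have e3 : Real.pi * p / n = (p' : ℝ) / n' * Real.pi := by
      have a1 : (p : ℝ) = Nat.gcd p n * p' := by exact_mod_cast hp'
      have a2 : (n : ℝ) = Nat.gcd p n * n' := by exact_mod_cast hn'
      have a3 : (Nat.gcd p n : ℝ) ≠ 0 := by exact_mod_cast hg.ne'
      have a4 : (n' : ℝ) ≠ 0 := by exact_mod_cast hn0.ne'
      rw [a1, a2]
      field_simp
    rwa [e3] at hlt
  obtain ⟨f, hf⟩ := R p' n' hp0 hn0 hcop hlt'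
  refine ⟨f, ?_⟩
  have := pq_mul hf (Nat.gcd p n)
  rw [← hp', ← hn'] at this
  exact this

theorem isTable_of {h : ℝ → ℝ} {η : ℝ} (H : SmoothTable h) (h0 : 0 < η)
    (hL : Collar h η ∨ Leaves h (η / Real.pi)) : IsTable h := by
  rcases hL with hC | R
  · exact regularity H (Or.inl ⟨η, h0, hC⟩)
  · have R' := leaves_all R
    have hpi0 := Real.pi_pos
    refine regularity H (Or.inr ?_)
    obtain ⟨q0, hq0⟩ := exists_nat_gt (Real.pi / η)
    refine ⟨q0 + 1, fun q hq => ?_⟩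
    have hq' : (q0 : ℝ) ≤ q := by exact_mod_cast (by omega : q0 ≤ q)
    have hq1 : (0 : ℝ) < q := by exact_mod_cast (by omega : 0 < q)
    rw [div_lt_iff₀ h0] at hq0
    obtain ⟨f, h1, h2⟩ := R' q 1 (by omega) one_pos (by
      rw [div_lt_iff₀ hq1]
      push_cast
      nlinarith)
    refine ⟨f, h1, fun x hx => ?_⟩
    have := h2 x hx
    simpa using this

/-- **Theorem A, complex form** (input of the parts B, C, D), from the existence of the family -/
theorem main_cx_of (hF : FamEx) {h : ℝ → ℝ} {η : ℝ} (H : SmoothTable h) (h0 : 0 < η)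
    (hL : Collar h η ∨ Leaves h (η / Real.pi)) :
    ∃ (κ ρ Λ L : ℝ) (Hh HH lam Φ : ℂ → ℂ) (l φ : ℝ → ℝ) (ρ' M L' r e : ℝ) (b θ : ℂ → ℂ → ℂ),
      LD h κ ρ Λ L Hh HH lam Φ l φ ∧ ρ' ≤ ρ / 2 ∧ Gen ρ' M b ∧ IsGen ρ Λ Hh HH Φ ρ' b ∧
        Fam b L' r e θ := by
  have Ht := isTable_of H h0 hL
  obtain ⟨κ, ρ, Λ, L, Hh, HH, lam, Φ, l, φ, ρ', M, b, T, h1, hG, hb⟩ := main_A1 Ht
  obtain ⟨η', CH, hη', hCH, hLM⟩ := exists_LeafMap T hG.hρ hb h0 (hL.imp id leaves_all)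
  obtain ⟨L', r, e, θ, F⟩ := hF ρ' M η' CH b hG hη' hCH hLM
  exact ⟨κ, ρ, Λ, L, Hh, HH, lam, Φ, l, φ, ρ', M, L', r, e, b, θ, T, h1, hG, hb, F⟩

/-- **Theorem A** from the existence of the family -/
theorem main_of (hF : FamEx) {h : ℝ → ℝ} {η : ℝ} (H : SmoothTable h) (h0 : 0 < η)
    (hL : Collar h η ∨ Leaves h (η / Real.pi)) : IsTable h ∧ IntBd h := by
  obtain ⟨κ, ρ, Λ, L, Hh, HH, lam, Φ, l, φ, ρ', M, L', r, e, b, θ, T, h1, hG, hb, F⟩ :=
    main_cx_of hF H h0 hL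
  exact ⟨isTable_of H h0 hL, intBd T hG.hρ hb F⟩

end Vale.Agent.P097.H402
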