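import Vale.Agent.P097.H707.FamEx
import Vale.Agent.P097.H402.Main0

/-! # P097 / Theorem A, assembly: the family of leaves exists (helper707's final theorem) -/

set_option linter.all false

namespace Vale.Agent.P097.H402

/-- **the family of leaves exists** -/
theorem famEx : FamEx := Vale.Agent.P097.TA.famEx

end Vale.Agent.P097.H402
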