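import Vale.Agent.P097.H402.Harnack

/-! # P097 / Theorem A, package A0 (helper402): closed chains of lines over the integers -/

set_option linter.all false

namespace Vale.Agent.P097.H402

open Vale.Agent.P097 Vale.Agent.P097.Reg Real Set

variable {M β P : ℝ}

/-- A closed chain of line directions `Z` with rotation number `p / n`, indexed by the integers;
`f` is an invariant graph which contains it. -/
structure ZChain (h f : ℝ → ℝ) (n p : ℕ) (Z : ℤ → ℝ) : Prop where
  per : ∀ i, Z (i + n) = Z i + 2 * π * p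
  gap : ∀ i, f ((Z i + Z (i + 1)) / 2) = (Z (i + 1) - Z i) / 2
  crit : ∀ i, K h (Z (i + 1)) ((Z i + Z (i + 1)) / 2) =
    K h (Z (i + 1)) ((Z (i + 1) + Z (i + 2)) / 2)

/-- the leaf map commutes with the full turn -/
theorem F_per {h f : ℝ → ℝ} (H : Adm h) (G : InvGraph h f) {F : ℝ → ℝ}
    (h1 : ∀ ψ, F ψ = ψ + f ψ + f (F ψ)) (h2 : ∀ ψ, K h (ψ + f ψ) ψ = K h (ψ + f ψ) (F ψ)) (x : ℝ) :
    F (x + 2 * π) = F x + 2 * π := by
  have hf := G.2.2.1
  apply next_unique H (φ := x + 2 * π + f (x + 2 * π))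
  · have := h1 (x + 2 * π)
    have := hf (F (x + 2 * π))
    constructor <;> linarith
  · have e := G.2.1 x
    rw [e]
    have := h1 x
    have := hf (F x)
    constructor <;> linarith
  · rw [← h2 (x + 2 * π), G.2.1]
    have e1 : x + 2 * π + f x = (x + f x) + 2 * π := by ring
    rw [e1, K_per H.per, K_per H.per, h2 x]

/-- orbits over the integers -/
theorem exists_zchain {h f : ℝ → ℝ} (H : Adm h) (G : InvGraph h f) {n p : ℕ} {F : ℝ → ℝ}
    (h1 : ∀ ψ, F ψ = ψ + f ψ + f (F ψ)) (h2 : ∀ ψ, K h (ψ + f ψ) ψ = K h (ψ + f ψ) (F ψ))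
    (hm : StrictMono F) (hs : Function.Surjective F) {ψ₀ : ℝ}
    (hcl : F^[n] ψ₀ = ψ₀ + 2 * π * p) :
    ∃ Z : ℤ → ℝ, Z 0 = ψ₀ - f ψ₀ ∧ ZChain h f n p Z := by
  set e : Equiv.Perm ℝ := Equiv.ofBijective F ⟨hm.injective, hs⟩ with he
  have heF : ∀ x, e x = F x := fun x => rfl
  set x : ℤ → ℝ := fun k => (e ^ k) ψ₀ with hx
  have hxs : ∀ k, x (k + 1) = F (x k) := by
    intro k
    simp only [hx]
    rw [add_comm, zpow_add, zpow_one, Equiv.Perm.mul_apply, heF]
  have hx1 : ∀ k, x (k + 1) = x k + f (x k) + f (x (k + 1)) := by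
    intro k
    have := h1 (x k)
    rw [← hxs k] at this
    exact this
  -- translations
  have hFp : ∀ (m : ℕ) (y : ℝ), F (y + 2 * π * m) = F y + 2 * π * m := by
    intro m
    induction m with
    | zero => intro y; simp
    | succ m ih =>
      intro y
      have e1 : y + 2 * π * ((m + 1 : ℕ) : ℝ) = (y + 2 * π * m) + 2 * π := by push_cast; ring
      rw [e1, F_per H G h1 h2, ih y]
      push_cast
      ring
  have hz : x n = ψ₀ + 2 * π * p := by
    have e2 : ∀ m : ℕ, x m = F^[m] ψ₀ := by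
      intro m
      induction m with
      | zero => simp [hx]
      | succ m ih =>
        rw [Function.iterate_succ_apply', ← ih, ← hxs]
        congr 1
    rw [e2, hcl]
  have hper : ∀ k, x (k + n) = x k + 2 * π * p := by
    intro k
    induction k using Int.induction_on with
    | zero => simpa [hx] using hz
    | succ k ih =>
      have e1 : ((k : ℤ) + 1 + n) = (k + n) + 1 := by ring
      rw [e1, hxs, ih, hFp, hxs]
    | pred k ih =>
      apply hm.injective
      rw [hFp, ← hxs, ← hxs]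
      have e1 : (-(k : ℤ) - 1 + n + 1) = -(k : ℤ) + n := by ring
      have e2 : (-(k : ℤ) - 1 + 1) = -(k : ℤ) := by ring
      rw [e1, e2, ih]
  have hfp : ∀ k, f (x (k + n)) = f (x k) := by
    intro k
    rw [hper k]
    exact PV.f_shift G.2.1 p _
  refine ⟨fun k => x k - f (x k), by simp [hx], ?_, ?_, ?_⟩
  · intro k
    show x (k + n) - f (x (k + n)) = x k - f (x k) + 2 * π * p
    rw [hfp k, hper k]
    ring
  · intro k
    show f ((x k - f (x k) + (x (k + 1) - f (x (k + 1)))) / 2) =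
      (x (k + 1) - f (x (k + 1)) - (x k - f (x k))) / 2
    have e1 : (x k - f (x k) + (x (k + 1) - f (x (k + 1)))) / 2 = x k := by
      linarith only [hx1 k]
    rw [e1]
    linarith only [hx1 k]
  · intro k
    show K h (x (k + 1) - f (x (k + 1))) ((x k - f (x k) + (x (k + 1) - f (x (k + 1)))) / 2) =
      K h (x (k + 1) - f (x (k + 1)))
        ((x (k + 1) - f (x (k + 1)) + (x (k + 2) - f (x (k + 2)))) / 2)
    have e1 : (x k - f (x k) + (x (k + 1) - f (x (k + 1)))) / 2 = x k := by
      linarith only [hx1 k]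
    have e3 := hx1 (k + 1)
    have e4 : k + 1 + 1 = k + 2 := by ring
    rw [e4] at e3
    have e2 : (x (k + 1) - f (x (k + 1)) + (x (k + 2) - f (x (k + 2)))) / 2 = x (k + 1) := by
      linarith only [e3]
    have e5 : x (k + 1) - f (x (k + 1)) = x k + f (x k) := by linarith only [hx1 k]
    rw [e1, e2, e5, hxs k]
    exact h2 (x k)

/-- the gaps of a closed chain are comparable with `p / n` -/
theorem ZChain.bounds (T : CTab M β P) {h : ℝ → ℝ} (H : Adm h) (hT : ∀ x : ℝ, h x = (T.G x).re) :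
    ∃ s0 : ℝ, 0 < s0 ∧ ∀ (f : ℝ → ℝ) (n p : ℕ) (Z : ℤ → ℝ), InvGraph h f → ZChain h f n p Z →
      0 < n → 0 < p → π * p / n ≤ s0 → ∀ i,
        (Z (i + 1) - Z i) / 2 ≤ 6 * M ^ 2 * (π * p / n) ∧
        π * p / n ≤ 6 * M ^ 2 * ((Z (i + 1) - Z i) / 2) := by
  obtain ⟨s0, hs0, hH⟩ := harnack T H hT
  have hM1 := T.M1
  have hM0 : 0 < M := by linarith only [hM1]
  refine ⟨s0 / (6 * M ^ 2), by positivity, ?_⟩
  intro f n p Z G C hn hp hpn i
  have hn0 : (0 : ℝ) < n := by exact_mod_cast hn
  have hM2 : 1 ≤ 6 * M ^ 2 := by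
    have : 1 ≤ M ^ 2 := one_le_pow₀ hM1
    linarith only [this]
  have hpn' : 6 * M ^ 2 * (π * p / n) ≤ s0 := by
    rw [le_div_iff₀ (by positivity)] at hpn
    linarith only [hpn]
  have hpn0 : 0 ≤ π * p / n := by positivity
  have hpn1 : π * p / n ≤ s0 := by
    refine le_trans ?_ hpn'
    calc π * p / n = 1 * (π * p / n) := (one_mul _).symm
      _ ≤ 6 * M ^ 2 * (π * p / n) := mul_le_mul_of_nonneg_right hM2 hpn0
  set d : ℤ → ℝ := fun k => (Z (k + 1) - Z k) / 2 with hd
  have hsum : ∑ k ∈ Finset.range n, d k = π * p := by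
    simp only [hd]
    rw [← Finset.sum_div]
    have := Finset.sum_range_sub (fun k : ℕ => Z k) n
    push_cast at this
    rw [this]
    have h0 := C.per 0
    simp only [zero_add] at h0
    rw [h0]
    push_cast
    ring
  have havg : ∑ k ∈ Finset.range n, (π * p / n : ℝ) = π * p := by
    rw [Finset.sum_const, Finset.card_range, nsmul_eq_mul]
    field_simp
  have hne : (Finset.range n).Nonempty := ⟨0, Finset.mem_range.2 hn⟩
  -- a small gap
  obtain ⟨k, -, hk⟩ : ∃ k ∈ Finset.range n, d k ≤ π * p / n := by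
    by_contra hcon
    push Not at hcon
    have := Finset.sum_lt_sum_of_nonempty hne hcon
    rw [havg, hsum] at this
    exact lt_irrefl _ this
  have hfk : f ((Z k + Z (k + 1)) / 2) = d k := C.gap k
  have hall : ∀ ψ, f ψ ≤ 6 * M ^ 2 * (π * p / n) := by
    intro ψ
    refine (hH f G _ (by rw [hfk]; exact hk.trans hpn1) ψ).trans ?_
    rw [hfk]
    gcongr
  refine ⟨?_, ?_⟩
  · have := hall ((Z i + Z (i + 1)) / 2)
    rw [C.gap i] at this
    exact this
  · -- a large gap
    obtain ⟨l, -, hl⟩ : ∃ l ∈ Finset.range n, π * p / n ≤ d l := by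
      by_contra hcon
      push Not at hcon
      have := Finset.sum_lt_sum_of_nonempty hne hcon
      rw [havg, hsum] at this
      exact lt_irrefl _ this
    have hfi : f ((Z i + Z (i + 1)) / 2) = d i := C.gap i
    have hi : d i ≤ s0 := by
      rw [← hfi]
      exact (hall _).trans hpn'
    have := hH f G ((Z i + Z (i + 1)) / 2) (by rw [hfi]; exact hi) ((Z l + Z (l + 1)) / 2)
    rw [hfi, C.gap l] at this
    exact hl.trans this

end Vale.Agent.P097.H402
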