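import Vale.Agent.P097.H402.Chains

/-! # P097 / Theorem A, package A0 (helper402): a closed chain through every line, Lazutkin
coordinate -/

set_option linter.all false

namespace Vale.Agent.P097.H402

open Vale.Agent.P097 Vale.Agent.P097.Reg Real Set

variable {M β P : ℝ}

/-- chains through every line, on a rational leaf -/
theorem exists_of_leaf {h f : ℝ → ℝ} (H : Adm h) {n p : ℕ} (R : PV.RatLeafP h n p f) (θ : ℝ) :
    ∃ Z : ℤ → ℝ, Z 0 = θ ∧ ZChain h f n p Z := by
  obtain ⟨F, hS, h1, h2, hm, hs⟩ := R.1.exists_F' H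
  have hsu : Function.Surjective (fun x => x - f x) := by
    apply surjective_of_shift (continuous_id.sub R.1.1)
    intro x
    show x + 2 * π - f (x + 2 * π) = x - f x + 2 * π
    rw [R.1.2.1]
    ring
  obtain ⟨ψ₀, hψ⟩ := hsu θ
  have hψ' : ψ₀ - f ψ₀ = θ := hψ
  have hcl : F^[n] ψ₀ = ψ₀ + 2 * π * p := by
    have := R.2 (fun j => F^[j] ψ₀) (fun j => by
      simp only [Function.iterate_succ_apply']
      exact hS _)
    simpa using this
  obtain ⟨Z, hZ0, hZ⟩ := exists_zchain H R.1 h1 h2 hm hs hcl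
  exact ⟨Z, hZ0.trans hψ', hZ⟩

/-- chains through every line, for a table with a collar -/
theorem exists_of_collar {h : ℝ → ℝ} (H : Adm h) {η : ℝ} (hη : Collar h η) {n p : ℕ} (hn : 0 < n)
    (hp : 0 < p) (hpn : π * p / n < η) (θ : ℝ) :
    ∃ (f : ℝ → ℝ) (Z : ℤ → ℝ), InvGraph h f ∧ Z 0 = θ ∧ ZChain h f n p Z := by
  obtain ⟨m, rfl⟩ : ∃ m, n = m + 1 := ⟨n - 1, by omega⟩
  have hn1 : (0 : ℝ) < m + 1 := by positivity
  have hpn' : π * p / ((m : ℝ) + 1) < η := by
    have := hpn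
    push_cast at this
    exact this
  have hpm : p ≤ m := by
    have h1 := lt_of_lt_of_le hpn' (PV.collar_le_pi hη)
    rw [div_lt_iff₀ hn1] at h1
    have h2 : (p : ℝ) < m + 1 := lt_of_mul_lt_mul_left h1 pi_pos.le
    have : p < m + 1 := by exact_mod_cast h2
    omega
  obtain ⟨Z, MZ⟩ := PV.exists_maxP (n := m) (p := p) H.an.continuous (by omega) θ
  obtain ⟨hc, f, G, hf⟩ := MZ.closes_of_collar H hη hp hpm hpn'
  have hpos := MZ.pos H hp
  have hlt := MZ.lt_top H hpm
  obtain ⟨F, hS, h1, h2, hm, hs⟩ := G.exists_F' H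
  have hfr := G.2.2.1
  have hFm : ∀ j, j ≤ m → F (mid Z j) - Z (j + 1) ∈ Icc 0 π ∧
      K h (Z (j + 1)) (F (mid Z j)) = K h (Z (j + 1)) (mid Z j) := by
    intro j hj
    have e1 := hf j hj
    have e2 := h1 (mid Z j)
    have e3 := hfr (F (mid Z j))
    have e4 : mid Z j + f (mid Z j) = Z (j + 1) := by linarith only [e1]
    refine ⟨⟨by linarith only [e2, e3.1, e4], by linarith only [e2, e3.2, e4]⟩, ?_⟩
    have := h2 (mid Z j)
    rw [e4] at this
    exact this.symm
  have hFj : ∀ j, j + 1 ≤ m → F (mid Z j) = mid Z (j + 1) := by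
    intro j hj
    obtain ⟨e1, e2⟩ := hFm j (by omega)
    have p1 := hpos (j + 1) hj
    have l1 := hlt (j + 1) hj
    apply next_unique H (φ := Z (j + 1))
    · constructor <;> linarith only [e1.1, e1.2]
    · simp only [mid]
      constructor <;> linarith only [p1, l1]
    · rw [e2]
      exact MZ.crit H hp hpm hj
  have hFn : F (mid Z m) = mid Z 0 + 2 * π * p := by
    obtain ⟨e1, e2⟩ := hFm m le_rfl
    have p1 := hpos 0 (Nat.zero_le m)
    have l1 := hlt 0 (Nat.zero_le m)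
    have z0 := MZ.1.1
    have zn := MZ.1.2.1
    apply next_unique H (φ := Z (m + 1))
    · constructor <;> linarith only [e1.1, e1.2]
    · simp only [mid]
      constructor <;> linarith only [p1, l1, z0, zn]
    · rw [e2, hc, zn, z0]
      exact (PV.K_shift_both H.per p θ (mid Z 0)).symm
  have hcl : F^[m + 1] (mid Z 0) = mid Z 0 + 2 * π * p := by
    have key : ∀ j, j ≤ m → F^[j] (mid Z 0) = mid Z j := by
      intro j
      induction j with
      | zero => intro _; rfl
      | succ j ih =>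
        intro hj
        rw [Function.iterate_succ_apply', ih (by omega), hFj j hj]
    rw [Function.iterate_succ_apply', key m le_rfl, hFn]
  obtain ⟨Z', hZ0, hZ⟩ := exists_zchain H G h1 h2 hm hs hcl
  refine ⟨f, Z', G, ?_, hZ⟩
  rw [hZ0]
  have e1 := hf 0 (Nat.zero_le m)
  have e2 : mid Z 0 = (Z 0 + Z 1) / 2 := rfl
  have e3 : Z (0 + 1) = Z 1 := rfl
  rw [e3] at e1
  have z0 := MZ.1.1
  linarith only [e1, e2, z0]

/-- the Lazutkin coordinate on the reals -/
noncomputable def xr (T : CTab M β P) (x : ℝ) : ℝ := (T.X x).re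

theorem xr_eq (T : CTab M β P) (x : ℝ) : T.X x = (xr T x : ℂ) := by
  apply Complex.ext
  · simp [xr]
  · rw [ap_X_im]
    simp

theorem xr_hasDerivAt (T : CTab M β P) (x : ℝ) : HasDerivAt (xr T) (apl T x) x :=
  (T.dX x (T.rD x)).real_of_complex

theorem xr_bounds (T : CTab M β P) {a b : ℝ} (hab : a < b) :
    xr T b - xr T a ≤ M * (b - a) ∧ b - a ≤ M * (xr T b - xr T a) := by
  have hM1 := T.M1
  have hba : 0 < b - a := sub_pos.2 hab
  obtain ⟨c, -, hc⟩ := exists_hasDerivAt_eq_slope (xr T) (apl T) hab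
    (fun x _ => (xr_hasDerivAt T x).continuousAt.continuousWithinAt)
    (fun x _ => xr_hasDerivAt T x)
  have h1 : xr T b - xr T a = apl T c * (b - a) := by
    rw [hc]
    field_simp
  rw [h1]
  constructor
  · exact mul_le_mul_of_nonneg_right (apl_le T c) hba.le
  · have := apl_ge T c
    calc b - a = 1 * (b - a) := (one_mul _).symm
      _ ≤ (M * apl T c) * (b - a) := mul_le_mul_of_nonneg_right this hba.le
      _ = M * (apl T c * (b - a)) := by ring

theorem xr_per (T : CTab M β P) (p : ℕ) (x : ℝ) : xr T (x + 2 * π * p) = xr T x + p * P := by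
  have h0 : ∀ x : ℝ, xr T (x + 2 * π) = xr T x + P := by
    intro x
    have h3 := congrArg Complex.re (T.pX x (T.rD x))
    rw [Complex.add_re, Complex.ofReal_re] at h3
    have e2 : ((x + 2 * Real.pi : ℝ) : ℂ) = (x : ℂ) + 2 * Real.pi := by push_cast; ring
    rw [xr, e2, h3]
    rfl
  induction p with
  | zero => simp
  | succ p ih =>
    have e1 : x + 2 * π * ((p + 1 : ℕ) : ℝ) = (x + 2 * π * p) + 2 * π := by push_cast; ring
    rw [e1, h0, ih]
    push_cast
    ring

theorem z_xr (T : CTab M β P) (x : ℝ) : T.z (xr T x : ℂ) = x := by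
  rw [← xr_eq]
  exact T.zX x (T.rD x)

theorem exists_xr (T : CTab M β P) (y : ℝ) : ∃ x : ℝ, xr T x = y := by
  have hy : (y : ℂ) ∈ strip β := rb_real_mem T.β0 y
  refine ⟨(T.z y).re, ?_⟩
  have h1 := R8.z_real T y
  have h2 := T.Xz y hy
  rw [h1, xr_eq] at h2
  exact_mod_cast h2

/-- **Package A0**: closed chains of lines through every line, in the Lazutkin coordinate
normalised to period `1`. -/
theorem leaves (T : CTab M β P) {h : ℝ → ℝ} (H : Adm h) (hT : ∀ x : ℝ, h x = (T.G x).re)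
    {η : ℝ} (hη : 0 < η)
    (hL : Collar h η ∨ ∀ n p : ℕ, 0 < n → 0 < p → π * p / n < η → ∃ f, PV.RatLeafP h n p f) :
    ∃ η' CH : ℝ, 0 < η' ∧ 1 ≤ CH ∧ ∀ n p : ℕ, 0 < n → 0 < p → (p : ℝ) / n < η' → ∀ x : ℝ,
      ∃ (y Z : ℤ → ℝ), y 0 = x ∧ (∀ i, T.X (Z i) = P * y i) ∧ (∀ i, T.z (P * y i) = Z i) ∧
        (∀ i, y (i + n) = y i + p) ∧
        (∀ i, 0 < y (i + 1) - y i ∧ y (i + 1) - y i ≤ CH * ((p : ℝ) / n) ∧
          (p : ℝ) / n ≤ CH * (y (i + 1) - y i)) ∧
        ∀ i, K h (Z (i + 1)) ((Z i + Z (i + 1)) / 2) =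
          K h (Z (i + 1)) ((Z (i + 1) + Z (i + 2)) / 2) := by
  have hM1 := T.M1
  have hM0 : 0 < M := by linarith only [hM1]
  have hP := T.P0
  have hpi := Real.pi_pos
  obtain ⟨s0, hs0, hB⟩ := ZChain.bounds T H hT
  set η' : ℝ := min (η / π) (s0 / π) with hη'
  have hη0 : 0 < η' := lt_min (by positivity) (by positivity)
  set CH : ℝ := 1 + 12 * π * M ^ 3 / P + 3 * M ^ 3 * P / π with hCH
  have q1 : 0 ≤ 12 * π * M ^ 3 / P := by positivity
  have q2 : 0 ≤ 3 * M ^ 3 * P / π := by positivity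
  refine ⟨η', CH, hη0, by linarith only [q1, q2, hCH], ?_⟩
  intro n p hn hp hlt x
  have hn0 : (0 : ℝ) < n := by exact_mod_cast hn
  have hp0 : (0 : ℝ) < p := by exact_mod_cast hp
  have hε0 : (0 : ℝ) < (p : ℝ) / n := by positivity
  have e1 : π * p / n < η := by
    have := hlt.trans_le (min_le_left _ _)
    rw [lt_div_iff₀ hpi] at this
    calc π * p / n = (p : ℝ) / n * π := by ring
      _ < η := this
  have e2 : π * p / n ≤ s0 := by
    have := (hlt.trans_le (min_le_right _ _)).le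
    rw [le_div_iff₀ hpi] at this
    calc π * p / n = (p : ℝ) / n * π := by ring
      _ ≤ s0 := this
  obtain ⟨θ, hθ⟩ := exists_xr T (P * x)
  obtain ⟨f, Z, G, hZ0, C⟩ : ∃ (f : ℝ → ℝ) (Z : ℤ → ℝ), InvGraph h f ∧ Z 0 = θ ∧
      ZChain h f n p Z := by
    rcases hL with hL | hL
    · exact exists_of_collar H hL hn hp e1 θ
    · obtain ⟨f, R⟩ := hL n p hn hp e1
      obtain ⟨Z, h1, h2⟩ := exists_of_leaf H R θ
      exact ⟨f, Z, R.1, h1, h2⟩
  have hb := hB f n p Z G C hn hp e2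
  have hfr := G.2.2.1
  have hgap : ∀ i, Z i < Z (i + 1) := by
    intro i
    have := C.gap i
    have := (hfr ((Z i + Z (i + 1)) / 2)).1
    linarith
  have hPy : ∀ i, P * (xr T (Z i) / P) = xr T (Z i) := fun i => by field_simp
  refine ⟨fun i => xr T (Z i) / P, Z, ?_, ?_, ?_, ?_, ?_, C.crit⟩
  · simp only [hZ0, hθ]
    field_simp
  · intro i
    rw [xr_eq, ← Complex.ofReal_mul, hPy i]
  · intro i
    rw [← Complex.ofReal_mul, hPy i, z_xr]
  · intro i
    show xr T (Z (i + n)) / P = xr T (Z i) / P + p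
    rw [C.per i, xr_per]
    field_simp
  · intro i
    obtain ⟨b1, b2⟩ := hb i
    obtain ⟨c1, c2⟩ := xr_bounds T (hgap i)
    have g0 : 0 < Z (i + 1) - Z i := sub_pos.2 (hgap i)
    have x0 : 0 < xr T (Z (i + 1)) - xr T (Z i) := by
      by_contra hcon
      push Not at hcon
      have : M * (xr T (Z (i + 1)) - xr T (Z i)) ≤ 0 := mul_nonpos_of_nonneg_of_nonpos hM0.le hcon
      linarith only [this, c2, g0]
    have ey : xr T (Z (i + 1)) / P - xr T (Z i) / P = (xr T (Z (i + 1)) - xr T (Z i)) / P := by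
      ring
    show 0 < xr T (Z (i + 1)) / P - xr T (Z i) / P ∧ xr T (Z (i + 1)) / P - xr T (Z i) / P ≤
      CH * ((p : ℝ) / n) ∧ (p : ℝ) / n ≤ CH * (xr T (Z (i + 1)) / P - xr T (Z i) / P)
    rw [ey]
    refine ⟨by positivity, ?_, ?_⟩
    · rw [div_le_iff₀ hP]
      have d1 : xr T (Z (i + 1)) - xr T (Z i) ≤ 12 * π * M ^ 3 * ((p : ℝ) / n) := by
        have : M * (Z (i + 1) - Z i) ≤ M * (2 * (6 * M ^ 2 * (π * p / n))) := by
          apply mul_le_mul_of_nonneg_left _ hM0.le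
          linarith only [b1]
        calc xr T (Z (i + 1)) - xr T (Z i) ≤ M * (Z (i + 1) - Z i) := c1
          _ ≤ M * (2 * (6 * M ^ 2 * (π * p / n))) := this
          _ = 12 * π * M ^ 3 * ((p : ℝ) / n) := by ring
      have d2 : 12 * π * M ^ 3 * ((p : ℝ) / n) = 12 * π * M ^ 3 / P * ((p : ℝ) / n) * P := by
        field_simp
      have d3 : 12 * π * M ^ 3 / P * ((p : ℝ) / n) * P ≤ CH * ((p : ℝ) / n) * P := by
        have : 12 * π * M ^ 3 / P ≤ CH := by linarith only [q1, q2, hCH]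
        gcongr
      linarith only [d1, d2, d3]
    · have d1 : (p : ℝ) / n ≤ 3 * M ^ 3 / π * (xr T (Z (i + 1)) - xr T (Z i)) := by
        have a1 : π * ((p : ℝ) / n) ≤ 3 * M ^ 2 * (Z (i + 1) - Z i) := by
          have : π * ((p : ℝ) / n) = π * p / n := by ring
          rw [this]
          linarith only [b2]
        have a2 : 3 * M ^ 2 * (Z (i + 1) - Z i) ≤
            3 * M ^ 2 * (M * (xr T (Z (i + 1)) - xr T (Z i))) := by gcongr
        have a3 : π * ((p : ℝ) / n) ≤ 3 * M ^ 3 * (xr T (Z (i + 1)) - xr T (Z i)) := by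
          linarith only [a1, a2]
        rw [div_mul_eq_mul_div, le_div_iff₀ hpi]
        linarith only [a3]
      have d2 : 3 * M ^ 3 / π * (xr T (Z (i + 1)) - xr T (Z i)) =
          3 * M ^ 3 * P / π * ((xr T (Z (i + 1)) - xr T (Z i)) / P) := by
        field_simp
      have d3 : 3 * M ^ 3 * P / π * ((xr T (Z (i + 1)) - xr T (Z i)) / P) ≤
          CH * ((xr T (Z (i + 1)) - xr T (Z i)) / P) := by
        have : 3 * M ^ 3 * P / π ≤ CH := by linarith only [q1, q2, hCH]
        have : 0 ≤ (xr T (Z (i + 1)) - xr T (Z i)) / P := by positivity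
        gcongr
      linarith only [d1, d2, d3]

end Vale.Agent.P097.H402
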