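import Vale.Agent.P097.H402.RealA
import Vale.Agent.P097.H202.Dict
import Vale.Agent.P268.Hol

/-! # P097 / Theorem A, assembly: the real family of lines of the holomorphic family of leaves -/

set_option linter.all false

namespace Vale.Agent.P097.H402

open Set Filter Topology Vale.Agent.P097 Vale.Agent.P097.TA Vale.Agent.P097.H202
open scoped ComplexConjugate

/-- the real family of lines -/
noncomputable def phR (φ : ℝ → ℝ) (θ : ℂ → ℂ → ℂ) (q : ℝ × ℝ) : ℝ := φ ((θ q.1 q.2).re)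

variable {h : ℝ → ℝ} {κ ρ Λ L : ℝ} {H HH lam Φ : ℂ → ℂ} {l φ : ℝ → ℝ}
variable {b θ : ℂ → ℂ → ℂ} {L' r e : ℝ}

theorem real_mem_WW (F : Fam b L' r e θ) {x w : ℝ} (hw : |w| < e) (a : ℝ) :
    ((x : ℂ), (w : ℂ)) ∈ WW a r e := by
  have hr := F.hr
  refine ⟨?_, ?_⟩
  · simpa using hw
  · simpa using hr

theorem fam_real (F : Fam b L' r e θ) {x w : ℝ} (hw : |w| < e) :
    ((θ x w).re : ℂ) = θ x w := by
  have := F.re x w (real_mem_WW F hw 0)
  rw [Complex.conj_ofReal, Complex.conj_ofReal] at this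
  exact (Complex.conj_eq_iff_re.1 this.symm)

theorem fam_zero (F : Fam b L' r e θ) (x : ℝ) : θ x 0 = x := by
  have h0 : ((x : ℂ), (0 : ℂ)) ∈ WW 0 r e := by
    have := real_mem_WW F (x := x) (w := 0) (by simpa using F.he) 0
    simpa using this
  have := F.cl x 0 h0
  simp only [norm_zero, ne_eq, OfNat.ofNat_ne_zero, not_false_eq_true, zero_pow, mul_zero] at this
  exact sub_eq_zero.1 (norm_le_zero_iff.1 this)

theorem fam_analytic (F : Fam b L' r e θ) {x w : ℝ} (hw : |w| < e) :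
    AnalyticAt ℝ (fun q : ℝ × ℝ => (θ q.1 q.2).re) (x, w) := by
  have hopen : IsOpen (WW 0 r e) := by
    have : WW 0 r e = {p : ℂ × ℂ | ‖p.2‖ < e} ∩ {p : ℂ × ℂ | |p.1.im| + 0 * |p.2.im| < r} := rfl
    rw [this]
    exact (isOpen_lt (by fun_prop) continuous_const).inter (isOpen_lt (by fun_prop) continuous_const)
  have h1 : AnalyticAt ℂ (fun p : ℂ × ℂ => θ p.1 p.2) ((x : ℂ), (w : ℂ)) :=
    P268.analyticOnNhd_of_differentiableOn hopen F.hol _ (real_mem_WW F hw 0)
  have h2 : AnalyticAt ℝ (fun p : ℂ × ℂ => θ p.1 p.2) ((x : ℂ), (w : ℂ)) :=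
    AnalyticAt.restrictScalars h1
  have h3 : AnalyticAt ℝ (fun q : ℝ × ℝ => ((q.1 : ℂ), (q.2 : ℂ))) (x, w) :=
    ((Complex.ofRealCLM.comp (ContinuousLinearMap.fst ℝ ℝ ℝ)).prod
      (Complex.ofRealCLM.comp (ContinuousLinearMap.snd ℝ ℝ ℝ))).analyticAt _
  have h4 : AnalyticAt ℝ (fun q : ℝ × ℝ => θ (q.1 : ℂ) (q.2 : ℂ)) (x, w) :=
    AnalyticAt.comp' (g := fun p : ℂ × ℂ => θ p.1 p.2)
      (f := fun q : ℝ × ℝ => ((q.1 : ℂ), (q.2 : ℂ))) (x := (x, w)) h2 h3
  exact AnalyticAt.comp' (g := fun z : ℂ => z.re) (Complex.reCLM.analyticAt _) h4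

/-- the real family of lines is an even analytic family -/
theorem lineFam (T : LD h κ ρ Λ L H HH lam Φ l φ) (F : Fam b L' r e θ) {e' : ℝ} (he' : 0 < e')
    (hee : e' ≤ e) : LineFam (phR φ θ) e' where
  he := he'
  an := by
    rintro ⟨x, w⟩ hq
    exact AnalyticAt.comp' (g := φ) (T.aφ _) (fam_analytic F (lt_of_lt_of_le hq hee))
  per := by
    intro x w hw
    have hw' : |w| < e := hw.trans_le hee
    have := F.per x w (real_mem_WW F hw' 0)
    have e1 : (θ ((x + 1 : ℝ) : ℂ) w).re = (θ x w).re + 1 := by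
      push_cast
      rw [this]
      simp
    show φ ((θ ((x + 1 : ℝ) : ℂ) w).re) = φ ((θ x w).re) + 2 * Real.pi
    rw [e1, T.φp]
  ev := by
    intro x w hw
    have hw' : |w| < e := hw.trans_le hee
    have := F.ev x w (real_mem_WW F hw' 0)
    show φ ((θ x ((-w : ℝ) : ℂ)).re) = φ ((θ x w).re)
    push_cast
    rw [this]
  pos := by
    intro x
    have he : 0 < e := F.he
    have h1 : AnalyticAt ℝ (phR φ θ) (x, 0) :=
      AnalyticAt.comp' (g := φ) (T.aφ _) (fam_analytic F (by simpa using he))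
    have h2 := LineFam.hasDerivAt_x h1.differentiableAt
    have h3 : (fun x : ℝ => phR φ θ (x, 0)) = φ := by
      funext y
      show φ ((θ y ((0 : ℝ) : ℂ)).re) = φ y
      rw [Complex.ofReal_zero, fam_zero F, Complex.ofReal_re]
    rw [h3] at h2
    rw [h2.unique (T.dφ x)]
    exact div_pos T.Λ0 (T.lpos _)

/-- the lines of the family are billiard orbits -/
theorem exists_ELF (T : LD h κ ρ Λ L H HH lam Φ l φ) {ρ' : ℝ} (hρ' : 0 < ρ')
    (hb : IsGen ρ Λ H HH Φ ρ' b) (F : Fam b L' r e θ) :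
    ∃ e' : ℝ, 0 < e' ∧ e' ≤ e ∧ ELF h (phR φ θ) e' := by
  set N : ℝ := 1 + 2 * |L'| with hN
  have hN0 : 0 < N := by positivity
  have he := F.he
  refine ⟨min (min e 1) (ρ' / N), by positivity, (min_le_left _ _).trans (min_le_left _ _), ?_⟩
  intro x w hw0 hw1
  have hwe : w < e := hw1.trans_le ((min_le_left _ _).trans (min_le_left _ _))
  have hw11 : w < 1 := hw1.trans_le ((min_le_left _ _).trans (min_le_right _ _))
  have hwr : w < ρ' / N := hw1.trans_le (min_le_right _ _)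
  rw [lt_div_iff₀ hN0] at hwr
  have hwa : |w| < e := by rw [abs_of_pos hw0]; exact hwe
  have hcl : ∀ y : ℝ, |(θ y w).re - y| ≤ |L'| * w := by
    intro y
    have h1 := F.cl y w (real_mem_WW F hwa 0)
    rw [← fam_real F hwa, ← Complex.ofReal_sub, Complex.norm_real, Complex.norm_real,
      Real.norm_eq_abs, Real.norm_eq_abs, abs_of_pos hw0] at h1
    refine h1.trans ?_
    have h2 : L' * w ^ 2 ≤ |L'| * w ^ 2 := by
      have := le_abs_self L'
      gcongr
    have h3 : |L'| * w ^ 2 ≤ |L'| * w := by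
      have : w ^ 2 ≤ w := by nlinarith
      gcongr
    linarith
  have hgap : ∀ y z : ℝ, z - y = w → |(θ z w).re - (θ y w).re| < ρ' := by
    intro y z hyz
    have h1 := abs_le.1 (hcl y)
    have h2 := abs_le.1 (hcl z)
    have h3 : w * N = w + 2 * (|L'| * w) := by rw [hN]; ring
    rw [abs_lt]
    constructor <;> linarith
  have hE := F.er x w (real_mem_WW F hwa 1)
  rw [Er] at hE
  have e1 : ((x : ℂ) - w) = ((x - w : ℝ) : ℂ) := by push_cast; ring
  have e2 : ((x : ℂ) + w) = ((x + w : ℝ) : ℂ) := by push_cast; ring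
  rw [e1, e2, ← fam_real F hwa (x := x - w), ← fam_real F hwa (x := x),
    ← fam_real F hwa (x := x + w),
    EL_real_iff T hρ' hb (hgap _ _ (by ring)) (hgap _ _ (by ring))] at hE
  exact hE

end Vale.Agent.P097.H402
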