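import Vale.Agent.P097.PV.Main

/-! # P097 / Theorem A, package A0 (helper402): Harnack inequality for invariant graphs near the
boundary

An invariant graph which is low at one point is low everywhere, with a ratio depending only on the
table: the product of the half gap and of the cube root of the radius of curvature is an adiabatic
invariant; one turn is enough because of the monotonicity of `x + f x`. -/

set_option linter.all false

namespace Vale.Agent.P097.H402

open Vale.Agent.P097 Vale.Agent.P097.Reg Real Set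

variable {M β P : ℝ}

/-- One step of the adiabatic invariant along an exact real orbit. -/
theorem wstep (T : CTab M β P) {h : ℝ → ℝ} (H : An h) (hT : ∀ x : ℝ, h x = (T.G x).re) :
    ∃ C s : ℝ, 1 ≤ C ∧ 0 < s ∧ ∀ φ d d' : ℝ, 0 < d → 0 < d' → d ≤ s → d' ≤ π →
      K h φ (φ - d) = K h φ (φ + d') →
      |d' * apl T (φ + d') - d * apl T (φ - d)| ≤ C * d ^ 4 ∧ d' ≤ 4 * M ^ 3 * d := by
  have hM1 := T.M1
  have hM0 : 0 < M := by linarith only [hM1]
  have hβ0 := T.β0
  obtain ⟨C, hC, hw⟩ := ap_wstep M hM1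
  have hC0 : 0 < C := by linarith only [hC]
  have h1 : ∀ x, HasDerivAt h (deriv h x) x := H.hasDerivAt
  have h2 : ∀ x, HasDerivAt (deriv h) (deriv (deriv h) x) x := H.deriv.hasDerivAt
  have hdf : df T h = fun _ => 0 := by
    funext x
    simp only [df, hT x, sub_self]
  have hcl : Close T h 0 := by
    intro x
    rw [hdf]
    simp
  obtain ⟨r1, r2⟩ := ap_rad_bounds (T := T) h1 h2 hcl (by simp)
  set s : ℝ := min (β / (3 * M)) (1 / (400 * M ^ 6 + 4 * M ^ 3 + C)) with hs
  have hs0 : 0 < s := by
    rw [hs]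
    refine lt_min ?_ ?_ <;> positivity
  refine ⟨C, s, hC, hs0, ?_⟩
  intro φ d d' hd hd' hds hd'p he
  have e1 : 3 * M * d ≤ β := by
    have := (le_div_iff₀ (by positivity)).1 (hds.trans (min_le_left _ _))
    linarith only [this]
  have e2 : (400 * M ^ 6 + 4 * M ^ 3 + C) * d ≤ 1 := by
    have := (le_div_iff₀ (by positivity)).1 (hds.trans (min_le_right _ _))
    linarith only [this]
  have p1 : 0 ≤ 400 * M ^ 6 * d := by positivity
  have p2 : 0 ≤ 4 * M ^ 3 * d := by positivity
  have p3 : 0 ≤ C * d := by positivity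
  have hd1 : d ≤ 1 := by
    have a1 : 1 * d ≤ C * d := mul_le_mul_of_nonneg_right hC hd.le
    linarith only [a1, e2, p1, p2]
  have hdp : d ≤ π := by
    have := Real.pi_gt_three
    linarith only [this, hd1]
  obtain ⟨c1, c2⟩ := ap_compare h1 h2 hM1 r1 r2 hd hdp hd' hd'p he
  refine ⟨?_, c1⟩
  have hnd : ‖(d : ℂ)‖ = d := by rw [Complex.norm_real, Real.norm_eq_abs, abs_of_pos hd]
  have hA : Ad T φ d := by
    refine ⟨T.rD _, by exact_mod_cast hd.ne', ?_, ?_⟩
    · rw [ap_X_im, abs_zero, zero_add, hnd]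
      have : 0 < M * d := by positivity
      linarith only [e1, this]
    · rw [hnd]
      linarith only [e2, p1, p2, p3]
  have := hw T le_rfl h1 h2 hcl hA hd hd' hdp hd'p c1 c2 (by linarith only [e2, p1, p3])
    (by linarith only [e2, p1, p2]) he
  simpa using this

/-- **Harnack inequality for leaves.** -/
theorem harnack (T : CTab M β P) {h : ℝ → ℝ} (H : Adm h) (hT : ∀ x : ℝ, h x = (T.G x).re) :
    ∃ s0 : ℝ, 0 < s0 ∧ ∀ f : ℝ → ℝ, InvGraph h f → ∀ ψ₀ : ℝ, f ψ₀ ≤ s0 →
      ∀ ψ, f ψ ≤ 6 * M ^ 2 * f ψ₀ := by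
  have hM1 := T.M1
  have hM0 : 0 < M := by linarith only [hM1]
  obtain ⟨C, s, hC, hs0, hstep⟩ := wstep T H.an hT
  have hC0 : 0 < C := by linarith only [hC]
  have hpi := Real.pi_pos
  -- the smallness condition on `W ≤ M * s0`
  set A : ℝ := 32 * (4 * π * M + 1) * C * M ^ 4 with hA
  have hA0 : 0 < A := by rw [hA]; positivity
  set s0 : ℝ := min (s / (2 * M ^ 2)) (1 / (M * (1 + A))) with hs0'
  have hs00 : 0 < s0 := by
    rw [hs0']
    refine lt_min ?_ ?_ <;> positivity
  refine ⟨s0, hs00, ?_⟩
  intro f G ψ₀ hf0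
  obtain ⟨F, -, h1, h2, hm, ha, hb, -⟩ := G.exists_data H
  have hfr := G.2.2.1
  set x : ℕ → ℝ := fun t => F^[t] ψ₀ with hx
  have hx0 : x 0 = ψ₀ := rfl
  have hxs : ∀ t, x (t + 1) = F (x t) := fun t => by
    simp only [hx, Function.iterate_succ_apply']
  set d : ℕ → ℝ := fun t => f (x t) with hd
  have hdpos : ∀ t, 0 < d t := fun t => (hfr _).1
  have hdpi : ∀ t, d t ≤ π := fun t => (hfr _).2.le
  have hx1 : ∀ t, x (t + 1) = x t + d t + d (t + 1) := fun t => by
    have := h1 (x t)
    simp only [hd]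
    rw [hxs t]
    exact this
  set w : ℕ → ℝ := fun t => d t * apl T (x t) with hw
  have hdw : ∀ t, d t ≤ M * w t := by
    intro t
    have a1 := apl_ge T (x t)
    simp only [hw]
    calc d t = d t * 1 := (mul_one _).symm
      _ ≤ d t * (M * apl T (x t)) := mul_le_mul_of_nonneg_left a1 (hdpos t).le
      _ = M * (d t * apl T (x t)) := by ring
  have hwd : ∀ t, w t ≤ M * d t := by
    intro t
    simp only [hw]
    rw [mul_comm]
    exact mul_le_mul_of_nonneg_right (apl_le T _) (hdpos t).le
  have hst : ∀ t, d t ≤ s → |w (t + 1) - w t| ≤ C * d t ^ 4 := by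
    intro t ht
    have e := h2 (x t)
    have e1 : x t = (x t + d t) - d t := by ring
    have e2 : F (x t) = (x t + d t) + d (t + 1) := by
      rw [← hxs t, hx1 t]
    have e3 : K h (x t + d t) ((x t + d t) - d t) = K h (x t + d t) ((x t + d t) + d (t + 1)) := by
      rw [← e1, ← e2]
      exact e
    have := (hstep (x t + d t) (d t) (d (t + 1)) (hdpos t) (hdpos _) ht (hdpi _) e3).1
    rw [← e2, ← hxs t, ← e1] at this
    exact this
  set W : ℝ := w 0 with hW
  have hW0 : 0 < W := by
    have := apl_pos T (x 0)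
    have := hdpos 0
    simp only [hW, hw]
    positivity
  have hWf : W ≤ M * f ψ₀ := hwd 0
  have hWs : W ≤ M * s0 := hWf.trans (mul_le_mul_of_nonneg_left hf0 hM0.le)
  have hW1 : 2 * M * W ≤ s := by
    have a1 : s0 ≤ s / (2 * M ^ 2) := min_le_left _ _
    rw [le_div_iff₀ (by positivity)] at a1
    have a2 : 2 * M * W ≤ 2 * M * (M * s0) := by gcongr
    linarith only [a1, a2]
  have hW2 : W * (1 + A) ≤ 1 := by
    have a1 : s0 ≤ 1 / (M * (1 + A)) := min_le_right _ _
    rw [le_div_iff₀ (by positivity)] at a1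
    have a2 : W * (1 + A) ≤ M * s0 * (1 + A) := by gcongr
    linarith only [a1, a2]
  have hW3 : W ≤ 1 := by
    have : 0 < W * A := by positivity
    linarith only [this, hW2]
  have hW4 : A * W ≤ 1 := by linarith only [hW2, hW0]
  set D : ℝ := C * (2 * M * W) ^ 4 with hD
  have hD0 : 0 ≤ D := by rw [hD]; positivity
  -- drift control
  have hdr : ∀ N : ℕ, (N : ℝ) * D ≤ W / 2 → ∀ t : ℕ, t ≤ N → |w t - W| ≤ t * D := by
    intro N hN t
    induction t with
    | zero => intro _; simp [hW]
    | succ t ih =>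
      intro ht
      have i1 := ih (by omega)
      have i2 : (t : ℝ) * D ≤ W / 2 := by
        refine le_trans ?_ hN
        have : (t : ℝ) ≤ N := by exact_mod_cast (by omega : t ≤ N)
        gcongr
      have i3 : w t ≤ 2 * W := by
        have := (abs_le.1 i1).2
        linarith only [this, i2, hW0]
      have i4 : d t ≤ 2 * M * W := by
        have := hdw t
        have a2 : M * w t ≤ M * (2 * W) := by gcongr
        linarith only [this, a2]
      have i5 := hst t (i4.trans hW1)
      have i6 : C * d t ^ 4 ≤ D := by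
        have := (hdpos t).le
        rw [hD]
        gcongr
      have e : w (t + 1) - W = (w (t + 1) - w t) + (w t - W) := by ring
      rw [e]
      refine (abs_add_le _ _).trans ?_
      push_cast
      linarith only [i1, i5, i6]
  set N : ℕ := ⌈4 * π * M / W⌉₊ with hN
  have hN1 : 4 * π * M / W ≤ N := Nat.le_ceil _
  have hN2 : (N : ℝ) ≤ 4 * π * M / W + 1 := (Nat.ceil_lt_add_one (by positivity)).le
  have hND : (N : ℝ) * D ≤ W / 2 := by
    have a1 : (N : ℝ) * W ≤ 4 * π * M + 1 := by
      have b1 : (N : ℝ) * W ≤ (4 * π * M / W + 1) * W := by gcongr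
      have b2 : (4 * π * M / W + 1) * W = 4 * π * M + W := by field_simp
      linarith only [b1, b2, hW3]
    have a2 : (N : ℝ) * D = 16 * C * M ^ 4 * W ^ 3 * (N * W) := by rw [hD]; ring
    have a3 : 16 * C * M ^ 4 * W ^ 3 * (N * W) ≤ 16 * C * M ^ 4 * W ^ 3 * (4 * π * M + 1) := by
      gcongr
    have a4 : 16 * C * M ^ 4 * W ^ 3 * (4 * π * M + 1) = (A * W) * W * (W / 2) := by
      rw [hA]; ring
    have a5 : (A * W) * W * (W / 2) ≤ 1 * 1 * (W / 2) := by gcongr
    linarith only [a2, a3, a4, a5]
  have hall := hdr N hND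
  have hlow : ∀ t ≤ N, W / 2 ≤ w t := by
    intro t ht
    have i1 := hall t ht
    have i2 : (t : ℝ) * D ≤ W / 2 := by
      refine le_trans ?_ hND
      have : (t : ℝ) ≤ N := by exact_mod_cast ht
      gcongr
    have := (abs_le.1 i1).1
    linarith only [this, i2]
  have hup : ∀ t ≤ N, d t ≤ 2 * M * W := by
    intro t ht
    have i1 := hall t ht
    have i2 : (t : ℝ) * D ≤ W / 2 := by
      refine le_trans ?_ hND
      have : (t : ℝ) ≤ N := by exact_mod_cast ht
      gcongr
    have i3 : w t ≤ 2 * W := by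
      have := (abs_le.1 i1).2
      linarith only [this, i2, hW0]
    have := hdw t
    have a2 : M * w t ≤ M * (2 * W) := by gcongr
    linarith only [this, a2]
  -- one turn
  have hadv : ∀ t : ℕ, t ≤ N → ψ₀ + t * (W / (2 * M)) ≤ x t := by
    intro t
    induction t with
    | zero => intro _; simp [hx0]
    | succ t ih =>
      intro ht
      have i1 := ih (by omega)
      have i2 := hlow t (by omega)
      have i3 : W / (2 * M) ≤ d t := by
        rw [div_le_iff₀ (by positivity)]
        have := hwd t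
        linarith only [this, i2]
      have i4 := hx1 t
      have i5 := hdpos (t + 1)
      push_cast
      linarith only [i1, i3, i4, i5]
  have hturn : ψ₀ + 2 * π ≤ x N := by
    have a1 := hadv N le_rfl
    have a2 : 2 * π ≤ N * (W / (2 * M)) := by
      have b1 : 4 * π * M ≤ N * W := by
        rw [div_le_iff₀ hW0] at hN1
        exact hN1
      have b2 : (N : ℝ) * (W / (2 * M)) = N * W / (2 * M) := by ring
      rw [b2, le_div_iff₀ (by positivity)]
      linarith only [b1]
    linarith only [a1, a2]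
  -- the bound on one period
  have hper : ∀ ψ, ψ₀ ≤ ψ → ψ ≤ x N → f ψ ≤ 6 * M * W := by
    intro ψ hψ1 hψ2
    rcases eq_or_lt_of_le hψ2 with he | hlt
    · have := hup N le_rfl
      rw [he]
      have e : f (x N) = d N := rfl
      rw [e]
      have : 0 < M * W := by positivity
      linarith
    · -- the first index after `ψ`
      obtain ⟨t, ht1, ht2, ht3⟩ : ∃ t : ℕ, t < N ∧ x t ≤ ψ ∧ ψ < x (t + 1) := by
        classical
        have hex : ∃ t : ℕ, ψ < x t := ⟨N, hlt⟩
        have hf1 := Nat.find_spec hex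
        have hf2 : Nat.find hex ≤ N := Nat.find_min' hex hlt
        have hf3 : Nat.find hex ≠ 0 := by
          intro h0
          rw [h0, hx0] at hf1
          linarith only [hf1, hψ1]
        obtain ⟨t, ht⟩ := Nat.exists_eq_succ_of_ne_zero hf3
        refine ⟨t, by omega, ?_, ?_⟩
        · have := Nat.find_min hex (m := t) (by omega)
          exact not_lt.1 this
        · rw [ht] at hf1
          exact hf1
      have a1 : ψ + f ψ ≤ x (t + 1) + f (x (t + 1)) := hb.monotone ht3.le
      have e : f (x (t + 1)) = d (t + 1) := rfl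
      rw [e] at a1
      have a2 := hx1 t
      have a3 := hup t (by omega)
      have a4 := hup (t + 1) (by omega)
      linarith only [a1, a2, a3, a4, ht2]
  intro ψ
  obtain ⟨k, hk⟩ : ∃ k : ℤ, ψ + k * (2 * π) ∈ Ico ψ₀ (ψ₀ + 2 * π) := by
    obtain ⟨k, hk, -⟩ := existsUnique_add_zsmul_mem_Ico (by positivity : (0 : ℝ) < 2 * π) ψ ψ₀
    refine ⟨k, ?_⟩
    simpa [zsmul_eq_mul] using hk
  have hfk : f (ψ + k * (2 * π)) = f ψ := by
    have hp : Function.Periodic f (2 * π) := G.2.1
    exact hp.int_mul k ψ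
  have := hper _ hk.1 (hk.2.le.trans hturn)
  rw [hfk] at this
  calc f ψ ≤ 6 * M * W := this
    _ ≤ 6 * M * (M * f ψ₀) := by gcongr
    _ = 6 * M ^ 2 * f ψ₀ := by ring

end Vale.Agent.P097.H402
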