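import Vale.Agent.P097.H402.Exist

/-! # P097 / Theorem A, package A0 (helper402): the leaf map of rotation number `p / n`

The maximal pinned closed chains are unique, ordered, and invariant under the shift: they define a
strictly increasing map of the circle of line directions whose `n`-th iterate is the translation by
`p` turns. -/

set_option linter.all false

namespace Vale.Agent.P097.H402

open Vale.Agent.P097 Vale.Agent.P097.Reg Vale.Agent.P097.PV Real Set

variable {M β P : ℝ} {h : ℝ → ℝ} {n p : ℕ} {θ : ℝ} {Z : ℕ → ℝ}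

theorem S_shift (hper : ∀ x, h (x + 2 * π) = h x) (m : ℕ) (a b : ℝ) :
    S h (a + 2 * π * m) (b + 2 * π * m) = S h a b := by
  induction m with
  | zero => simp
  | succ k ih =>
    have e1 : a + 2 * π * ((k + 1 : ℕ) : ℝ) = (a + 2 * π * k) + 2 * π := by push_cast; ring
    have e2 : b + 2 * π * ((k + 1 : ℕ) : ℝ) = (b + 2 * π * k) + 2 * π := by push_cast; ring
    rw [e1, e2, S_per hper, ih]

/-- the shifted chain -/
noncomputable def sh (n p : ℕ) (Z : ℕ → ℝ) (j : ℕ) : ℝ := if j ≤ n then Z (j + 1) else Z 1 + 2 * π * p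

theorem sh_le {j : ℕ} (hj : j ≤ n) : sh n p Z j = Z (j + 1) := if_pos hj

theorem sh_last : sh n p Z (n + 1) = Z 1 + 2 * π * p := if_neg (by omega)

theorem sh_cfg (C : CfgP n p θ Z) : CfgP n p (Z 1) (sh n p Z) := by
  obtain ⟨c0, cn, c1, c2⟩ := C
  refine ⟨sh_le (Nat.zero_le n), sh_last, ?_, ?_⟩
  · intro j hj
    rcases Nat.lt_or_ge j n with h1 | h1
    · rw [sh_le hj, sh_le (by omega : j + 1 ≤ n)]
      exact c1 (j + 1) (by omega)
    · have : j = n := by omega
      subst this
      rw [sh_le le_rfl, sh_last, cn]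
      have := c1 0 (Nat.zero_le _)
      rw [c0] at this
      have e : Z (0 + 1) = Z 1 := rfl
      rw [e] at this
      linarith only [this]
  · intro j hj
    rcases Nat.lt_or_ge j n with h1 | h1
    · rw [sh_le hj, sh_le (by omega : j + 1 ≤ n)]
      exact c2 (j + 1) (by omega)
    · have : j = n := by omega
      subst this
      rw [sh_le le_rfl, sh_last, cn]
      have := c2 0 (Nat.zero_le _)
      rw [c0] at this
      have e : Z (0 + 1) = Z 1 := rfl
      rw [e] at this
      linarith only [this]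

theorem sh_L (hper : ∀ x, h (x + 2 * π) = h x) (C : CfgP n p θ Z) :
    L h n (sh n p Z) = L h n Z := by
  unfold L
  rw [Finset.sum_range_succ, Finset.sum_range_succ' (fun j => S h (Z j) (Z (j + 1)))]
  congr 1
  · apply Finset.sum_congr rfl
    intro j hj
    rw [Finset.mem_range] at hj
    rw [sh_le hj.le, sh_le (by omega : j + 1 ≤ n)]
  · rw [sh_le le_rfl, sh_last, C.2.1, S_shift hper, C.1]

theorem sh_max (H : Adm h) (hC : CstP h n p) (M : MaxP h n p θ Z) : MaxP h n p (Z 1) (sh n p Z) := by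
  have hc := H.an.continuous
  apply maxP_of_eq hc (sh_cfg M.1)
  rw [sh_L H.per M.1, hC (Z 1), ← hC θ, M.mx_eq hc]

/-- maximal chains are ordered -/
theorem max_le_max' (H : Adm h) (hp : 1 ≤ p) (hpn : p ≤ n) (hC : CstP h n p) {θ' : ℝ} {Z' : ℕ → ℝ}
    (M : MaxP h n p θ Z) (M' : MaxP h n p θ' Z') (hθ : θ ≤ θ') : ∀ j ≤ n + 1, Z j ≤ Z' j := by
  have hc := H.an.continuous
  have Cv : CfgP n p θ' (fun j => max (Z j) (Z' j)) := by
    refine ⟨?_, ?_, ?_, ?_⟩
    · simp only; rw [M.1.1, M'.1.1, max_eq_right hθ]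
    · simp only; rw [M.1.2.1, M'.1.2.1, max_eq_right (by linarith only [hθ])]
    · intro j hj
      exact max_le_max (M.1.2.2.1 j hj) (M'.1.2.2.1 j hj)
    · intro j hj
      have a := M.1.2.2.2 j hj
      have b := M'.1.2.2.2 j hj
      exact max_le (a.trans (by linarith only [le_max_left (Z j) (Z' j)]))
        (b.trans (by linarith only [le_max_right (Z j) (Z' j)]))
  have Cu : CfgP n p θ (fun j => min (Z j) (Z' j)) := by
    refine ⟨?_, ?_, ?_, ?_⟩
    · simp only; rw [M.1.1, M'.1.1, min_eq_left hθ]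
    · simp only; rw [M.1.2.1, M'.1.2.1, min_eq_left (by linarith only [hθ])]
    · intro j hj
      exact min_le_min (M.1.2.2.1 j hj) (M'.1.2.2.1 j hj)
    · intro j hj
      have a := M.1.2.2.2 j hj
      have b := M'.1.2.2.2 j hj
      have c := min_le_left (Z (j + 1)) (Z' (j + 1))
      have d := min_le_right (Z (j + 1)) (Z' (j + 1))
      have e : min (Z (j + 1)) (Z' (j + 1)) - 2 * π ≤ min (Z j) (Z' j) :=
        le_min (by linarith only [a, c]) (by linarith only [b, d])
      simp only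
      linarith only [e]
  -- supermodularity
  have h1 : L h n Z + L h n Z' ≤ L h n (fun j => max (Z j) (Z' j)) +
      L h n (fun j => min (Z j) (Z' j)) := by
    unfold L
    rw [← Finset.sum_add_distrib, ← Finset.sum_add_distrib]
    apply Finset.sum_le_sum
    intro j hj
    rw [Finset.mem_range] at hj
    have a1 := M.1.2.2.1 j (by omega)
    have a2 := M'.1.2.2.1 j (by omega)
    have g1 := M.1.2.2.2 j (by omega)
    have g2 := M'.1.2.2.2 j (by omega)
    show S h (Z j) (Z (j + 1)) + S h (Z' j) (Z' (j + 1)) ≤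
      S h (max (Z j) (Z' j)) (max (Z (j + 1)) (Z' (j + 1))) +
        S h (min (Z j) (Z' j)) (min (Z (j + 1)) (Z' (j + 1)))
    rcases le_total (Z j) (Z' j) with h1 | h1 <;>
      rcases le_total (Z (j + 1)) (Z' (j + 1)) with h2 | h2
    · rw [max_eq_right h1, max_eq_right h2, min_eq_left h1, min_eq_left h2]
      linarith only []
    · rw [max_eq_right h1, max_eq_left h2, min_eq_left h1, min_eq_right h2]
      have := S_super H h1 a2 h2 g1
      linarith only [this]
    · rw [max_eq_left h1, max_eq_right h2, min_eq_right h1, min_eq_left h2]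
      have := S_super H h1 a1 h2 g2
      linarith only [this]
    · rw [max_eq_left h1, max_eq_left h2, min_eq_right h1, min_eq_right h2]
  have h2 := le_mxP hc Cu
  have h3 := le_mxP hc Cv
  have h4 := M.mx_eq hc
  have h5 := M'.mx_eq hc
  have Mu : MaxP h n p θ (fun j => min (Z j) (Z' j)) := by
    apply maxP_of_eq hc Cu
    linarith only [h1, h3, h4, h5]
  intro j hj
  have : min (Z j) (Z' j) = Z j := Mu.unique H hp hpn hC M j hj
  rw [← this]
  exact min_le_right _ _

section

variable (h n p) in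
/-- the leaf map on line directions -/
noncomputable def lam (hmax : ∀ θ, ∃ Z, MaxP h n p θ Z) (θ : ℝ) : ℝ := (hmax θ).choose 1

variable (hmax : ∀ θ, ∃ Z, MaxP h n p θ Z)

theorem lam_eq (H : Adm h) (hp : 1 ≤ p) (hpn : p ≤ n) (hC : CstP h n p) (M : MaxP h n p θ Z) :
    lam h n p hmax θ = Z 1 :=
  ((hmax θ).choose_spec).unique H hp hpn hC M 1 (by omega)

theorem lam_iter (H : Adm h) (hp : 1 ≤ p) (hpn : p ≤ n) (hC : CstP h n p) (j : ℕ) :
    ∀ {θ : ℝ} {Z : ℕ → ℝ}, MaxP h n p θ Z → j ≤ n + 1 → (lam h n p hmax)^[j] θ = Z j := by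
  induction j with
  | zero => intro θ Z M _; exact M.1.1.symm
  | succ j ih =>
    intro θ Z M hj
    rw [Function.iterate_succ_apply, lam_eq hmax H hp hpn hC M, ih (sh_max H hC M) (by omega),
      sh_le (by omega)]

theorem lam_strictMono (H : Adm h) (hp : 1 ≤ p) (hpn : p ≤ n) (hC : CstP h n p) :
    StrictMono (lam h n p hmax) := by
  intro θ θ' hθ
  obtain ⟨Z, M⟩ := hmax θ
  obtain ⟨Z', M'⟩ := hmax θ'
  rw [lam_eq hmax H hp hpn hC M, lam_eq hmax H hp hpn hC M']
  refine lt_of_le_of_ne (max_le_max' H hp hpn hC M M' hθ.le 1 (by omega)) ?_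
  intro he
  have M1 := sh_max H hC M
  have M2 := sh_max H hC M'
  rw [← he] at M2
  have := M1.unique H hp hpn hC M2 n (by omega)
  rw [sh_le le_rfl, sh_le le_rfl, M.1.2.1, M'.1.2.1] at this
  linarith only [this, hθ]

theorem lam_full (H : Adm h) (hp : 1 ≤ p) (hpn : p ≤ n) (hC : CstP h n p) (θ : ℝ) :
    (lam h n p hmax)^[n + 1] θ = θ + 2 * π * p := by
  obtain ⟨Z, M⟩ := hmax θ
  rw [lam_iter hmax H hp hpn hC (n + 1) M le_rfl, M.1.2.1]

theorem lam_crit (H : Adm h) (hp : 1 ≤ p) (hpn : p ≤ n) (hC : CstP h n p) (θ : ℝ) :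
    K h (lam h n p hmax θ) ((θ + lam h n p hmax θ) / 2) =
      K h (lam h n p hmax θ) ((lam h n p hmax θ + lam h n p hmax (lam h n p hmax θ)) / 2) := by
  obtain ⟨Z, M⟩ := hmax θ
  have e0 : Z 0 = θ := M.1.1
  have e1 : lam h n p hmax θ = Z 1 := lam_eq hmax H hp hpn hC M
  have e2 : lam h n p hmax (lam h n p hmax θ) = Z 2 := by
    have := lam_iter hmax H hp hpn hC 2 M (by omega)
    simpa [Function.iterate_succ_apply'] using this
  have := M.crit H hp hpn (k := 0) (by omega)
  rw [e2, e1, ← e0]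
  exact this

end

/-- the line directions as a function of the normalised Lazutkin coordinate -/
noncomputable def tr (T : CTab M β P) (y : ℝ) : ℝ := (T.z ((P * y : ℝ) : ℂ)).re

/-- the normalised Lazutkin coordinate -/
noncomputable def sr (T : CTab M β P) (x : ℝ) : ℝ := xr T x / P

theorem tr_sr (T : CTab M β P) (x : ℝ) : tr T (sr T x) = x := by
  have hP := T.P0.ne'
  have e : P * sr T x = xr T x := by simp only [sr]; field_simp
  rw [tr, e, z_xr, Complex.ofReal_re]

theorem sr_tr (T : CTab M β P) (y : ℝ) : sr T (tr T y) = y := by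
  have hP := T.P0.ne'
  obtain ⟨x, hx⟩ := exists_xr T (P * y)
  have e : tr T y = x := by rw [tr, ← hx, z_xr, Complex.ofReal_re]
  rw [e, sr, hx]
  field_simp

theorem xr_strictMono (T : CTab M β P) : StrictMono (xr T) := by
  intro a b hab
  have hM1 := T.M1
  obtain ⟨-, c2⟩ := xr_bounds T hab
  by_contra hcon
  push Not at hcon
  have : M * (xr T b - xr T a) ≤ 0 :=
    mul_nonpos_of_nonneg_of_nonpos (by linarith only [hM1]) (by linarith only [hcon])
  linarith only [this, c2, hab]

theorem sr_strictMono (T : CTab M β P) : StrictMono (sr T) := fun a b hab => by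
  have := xr_strictMono T hab
  have hP := T.P0
  simp only [sr]
  gcongr

theorem tr_strictMono (T : CTab M β P) : StrictMono (tr T) := by
  intro a b hab
  rw [← (sr_strictMono T).lt_iff_lt, sr_tr, sr_tr]
  exact hab

theorem sr_per (T : CTab M β P) (m : ℕ) (x : ℝ) : sr T (x + 2 * π * m) = sr T x + m := by
  have hP := T.P0.ne'
  simp only [sr, xr_per]
  field_simp

theorem z_tr (T : CTab M β P) (y : ℝ) : T.z ((P * y : ℝ) : ℂ) = (tr T y : ℂ) :=
  R8.z_real T (P * y)

/-- the maximal chains lie on an invariant graph, in both cases -/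
theorem max_on_graph (H : Adm h) {η : ℝ} (hη : 0 < η)
    (hL : Collar h η ∨ ∀ n p : ℕ, 0 < n → 0 < p → π * p / n < η → ∃ f, PV.RatLeafP h n p f)
    (hp : 1 ≤ p) (hlt : π * p / ((n + 1 : ℕ) : ℝ) < min η π) :
    p ≤ n ∧ CstP h n p ∧ ∀ θ Z, MaxP h n p θ Z →
      ∃ f, InvGraph h f ∧ ∀ j ≤ n, f (mid Z j) = Z (j + 1) - mid Z j := by
  have hn1 : (0 : ℝ) < n + 1 := by positivity
  have hlt' : π * p / ((n : ℝ) + 1) < min η π := by
    have := hlt
    push_cast at this
    exact this
  have hpn : p ≤ n := by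
    have h1 := lt_of_lt_of_le hlt' (min_le_right _ _)
    rw [div_lt_iff₀ hn1] at h1
    have h2 : (p : ℝ) < n + 1 := lt_of_mul_lt_mul_left h1 pi_pos.le
    have : p < n + 1 := by exact_mod_cast h2
    omega
  have h1 := lt_of_lt_of_le hlt' (min_le_left _ _)
  rcases hL with hL | hL
  · exact ⟨hpn, cstP_of_collar H hL hp hpn h1,
      fun θ Z MZ => (MZ.closes_of_collar H hL hp hpn h1).2⟩
  · obtain ⟨f, R⟩ := hL (n + 1) p (Nat.succ_pos n) hp (by push_cast; exact h1)
    exact ⟨hpn, cstP_of_leaf H hp hpn R, fun θ Z MZ => ⟨f, R.1, MZ.on_leaf H hp hpn R⟩⟩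

/-- **Package A0, leaf maps** in the Lazutkin coordinate normalised to period `1`: `f` is the map
of the leaf with rotation number `p / n` and `g` is its inverse. -/
theorem leafMap (T : CTab M β P) {h : ℝ → ℝ} (H : Adm h) (hT : ∀ x : ℝ, h x = (T.G x).re)
    {η : ℝ} (hη : 0 < η)
    (hL : Collar h η ∨ ∀ n p : ℕ, 0 < n → 0 < p → π * p / n < η → ∃ f, PV.RatLeafP h n p f) :
    ∃ η' CH : ℝ, 0 < η' ∧ 1 ≤ CH ∧ ∀ n p : ℕ, 0 < n → 0 < p → (p : ℝ) / n < η' →
      ∃ f g : ℝ → ℝ, StrictMono f ∧ (∀ y, f (g y) = y) ∧ (∀ y, g (f y) = y) ∧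
        (∀ y, f^[n] y = y + p) ∧
        (∀ y, 0 < f y - y ∧ f y - y ≤ CH * ((p : ℝ) / n) ∧ (p : ℝ) / n ≤ CH * (f y - y)) ∧
        ∀ y, K h (tr T y) ((tr T (g y) + tr T y) / 2) =
          K h (tr T y) ((tr T y + tr T (f y)) / 2) := by
  have hM1 := T.M1
  have hM0 : 0 < M := by linarith only [hM1]
  have hP := T.P0
  have hpi := Real.pi_pos
  obtain ⟨s0, hs0, hB⟩ := ZChain.bounds T H hT
  set η' : ℝ := min (min η π / π) (s0 / π) with hη'
  have hη0 : 0 < η' := lt_min (by positivity) (by positivity)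
  set CH : ℝ := 1 + 12 * π * M ^ 3 / P + 3 * M ^ 3 * P / π with hCH
  have q1 : 0 ≤ 12 * π * M ^ 3 / P := by positivity
  have q2 : 0 ≤ 3 * M ^ 3 * P / π := by positivity
  refine ⟨η', CH, hη0, by linarith only [q1, q2, hCH], ?_⟩
  intro N p hN hp hlt
  obtain ⟨n, rfl⟩ : ∃ n, N = n + 1 := ⟨N - 1, by omega⟩
  have hN0 : (0 : ℝ) < ((n + 1 : ℕ) : ℝ) := by exact_mod_cast hN
  have hp0 : (0 : ℝ) < p := by exact_mod_cast hp
  set ε : ℝ := (p : ℝ) / ((n + 1 : ℕ) : ℝ) with hε
  have hε0 : 0 < ε := by positivity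
  have hπε : π * p / ((n + 1 : ℕ) : ℝ) = π * ε := by rw [hε]; ring
  have e1 : π * p / ((n + 1 : ℕ) : ℝ) < min η π := by
    have := hlt.trans_le (min_le_left _ _)
    rw [lt_div_iff₀ hpi] at this
    rw [hπε]
    linarith only [this]
  have e2 : π * p / ((n + 1 : ℕ) : ℝ) ≤ s0 := by
    have := (hlt.trans_le (min_le_right _ _)).le
    rw [le_div_iff₀ hpi] at this
    rw [hπε]
    linarith only [this]
  obtain ⟨hpn, hC, hgr⟩ := max_on_graph H hη hL hp e1
  have hmax : ∀ θ, ∃ Z, MaxP h n p θ Z := fun θ => exists_maxP H.an.continuous (by omega) θ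
  set Λ := lam h n p hmax with hΛ
  have hmono : StrictMono Λ := lam_strictMono hmax H hp hpn hC
  have hfull : ∀ θ, Λ^[n + 1] θ = θ + 2 * π * p := lam_full hmax H hp hpn hC
  have hcrit := lam_crit hmax H hp hpn hC
  -- translations
  have htr : ∀ θ, Λ (θ + 2 * π * p) = Λ θ + 2 * π * p := by
    intro θ
    rw [← hfull θ, ← hfull (Λ θ), ← Function.iterate_succ_apply' Λ (n + 1),
      ← Function.iterate_succ_apply Λ (n + 1)]
  set Λi : ℝ → ℝ := fun θ => Λ^[n] θ - 2 * π * p with hΛi
  have hi1 : ∀ θ, Λ (Λi θ) = θ := by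
    intro θ
    have a1 := htr (Λi θ)
    have a2 : Λi θ + 2 * π * p = Λ^[n] θ := by simp only [hΛi]; ring
    rw [a2, ← Function.iterate_succ_apply' Λ n, hfull] at a1
    linarith only [a1]
  have hi2 : ∀ θ, Λi (Λ θ) = θ := fun θ => hmono.injective (hi1 (Λ θ))
  -- gap bounds
  have hgap : ∀ θ, θ < Λ θ ∧ (Λ θ - θ) / 2 ≤ 6 * M ^ 2 * (π * ε) ∧
      π * ε ≤ 6 * M ^ 2 * ((Λ θ - θ) / 2) := by
    intro θ
    obtain ⟨Z, MZ⟩ := hmax θ
    obtain ⟨f, G, hf⟩ := hgr θ Z MZ
    have hz1 : Λ θ = Z 1 := lam_eq hmax H hp hpn hC MZ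
    -- the chain over the integers
    obtain ⟨F, hS, h1, h2, hm, hs⟩ := G.exists_F' H
    have hclo := MZ.closes H hp hpn hC
    have hpos := MZ.pos H hp
    have hltt := MZ.lt_top H hpn
    have hfr := G.2.2.1
    have hFm : ∀ j, j ≤ n → F (mid Z j) - Z (j + 1) ∈ Icc 0 π ∧
        K h (Z (j + 1)) (F (mid Z j)) = K h (Z (j + 1)) (mid Z j) := by
      intro j hj
      have e1 := hf j hj
      have e2 := h1 (mid Z j)
      have e3 := hfr (F (mid Z j))
      have e4 : mid Z j + f (mid Z j) = Z (j + 1) := by linarith only [e1]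
      refine ⟨⟨by linarith only [e2, e3.1, e4], by linarith only [e2, e3.2, e4]⟩, ?_⟩
      have := h2 (mid Z j)
      rw [e4] at this
      exact this.symm
    have hFj : ∀ j, j + 1 ≤ n → F (mid Z j) = mid Z (j + 1) := by
      intro j hj
      obtain ⟨e1, e2⟩ := hFm j (by omega)
      have p1 := hpos (j + 1) hj
      have l1 := hltt (j + 1) hj
      apply next_unique H (φ := Z (j + 1))
      · constructor <;> linarith only [e1.1, e1.2]
      · simp only [mid]
        constructor <;> linarith only [p1, l1]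
      · rw [e2]
        exact MZ.crit H hp hpn hj
    have hFn : F (mid Z n) = mid Z 0 + 2 * π * p := by
      obtain ⟨e1, e2⟩ := hFm n le_rfl
      have p1 := hpos 0 (Nat.zero_le n)
      have l1 := hltt 0 (Nat.zero_le n)
      have z0 := MZ.1.1
      have zn := MZ.1.2.1
      apply next_unique H (φ := Z (n + 1))
      · constructor <;> linarith only [e1.1, e1.2]
      · simp only [mid]
        constructor <;> linarith only [p1, l1, z0, zn]
      · rw [e2, hclo, zn, z0]
        exact (PV.K_shift_both H.per p θ (mid Z 0)).symm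
    have hcl : F^[n + 1] (mid Z 0) = mid Z 0 + 2 * π * p := by
      have key : ∀ j, j ≤ n → F^[j] (mid Z 0) = mid Z j := by
        intro j
        induction j with
        | zero => intro _; rfl
        | succ j ih =>
          intro hj
          rw [Function.iterate_succ_apply', ih (by omega), hFj j hj]
      rw [Function.iterate_succ_apply', key n le_rfl, hFn]
    obtain ⟨Z', hZ0, hZ⟩ := exists_zchain H G h1 h2 hm hs hcl
    have f0 := hf 0 (Nat.zero_le n)
    have e3 : Z (0 + 1) = Z 1 := rfl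
    rw [e3] at f0
    have z0 := MZ.1.1
    have hZ0' : Z' 0 = θ := by
      rw [hZ0]
      have e2 : mid Z 0 = (Z 0 + Z 1) / 2 := rfl
      linarith only [f0, e2, z0]
    -- the second line of the chain
    have g0 := hZ.gap 0
    simp only [zero_add] at g0
    have hZ1 : Z' 1 = Z 1 := by
      have e4 : mid Z 0 = (θ + Z 1) / 2 := by rw [← z0]; rfl
      have e5 : f ((θ + Z' 1) / 2) = (θ + Z' 1) / 2 - θ := by
        rw [← hZ0', g0]; ring
      have e6 : f ((θ + Z 1) / 2) = (θ + Z 1) / 2 - θ := by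
        rw [← e4, f0, e4]; ring
      have := G.inj H e5 e6
      linarith only [this]
    have hb := hB f (n + 1) p Z' G hZ hN hp e2 0
    rw [zero_add, hZ0', hZ1, hπε] at hb
    refine ⟨?_, ?_, ?_⟩
    · have := hpos 0 (Nat.zero_le n)
      rw [hz1, ← z0]
      exact this
    · rw [hz1]; exact hb.1
    · rw [hz1]; exact hb.2
  refine ⟨fun y => sr T (Λ (tr T y)), fun y => sr T (Λi (tr T y)), ?_, ?_, ?_, ?_, ?_, ?_⟩
  · intro a b hab
    exact sr_strictMono T (hmono (tr_strictMono T hab))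
  · intro y
    show sr T (Λ (tr T (sr T (Λi (tr T y))))) = y
    rw [tr_sr, hi1, sr_tr]
  · intro y
    show sr T (Λi (tr T (sr T (Λ (tr T y))))) = y
    rw [tr_sr, hi2, sr_tr]
  · intro y
    have key : ∀ j, (fun y => sr T (Λ (tr T y)))^[j] y = sr T (Λ^[j] (tr T y)) := by
      intro j
      induction j with
      | zero => simp [sr_tr]
      | succ j ih =>
        rw [Function.iterate_succ_apply', ih, Function.iterate_succ_apply']
        show sr T (Λ (tr T (sr T (Λ^[j] (tr T y))))) = _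
        rw [tr_sr]
    rw [key, hfull, sr_per, sr_tr]
  · intro y
    obtain ⟨b0, b1, b2⟩ := hgap (tr T y)
    obtain ⟨c1, c2⟩ := xr_bounds T b0
    have g0 : 0 < Λ (tr T y) - tr T y := sub_pos.2 b0
    have x0 : 0 < xr T (Λ (tr T y)) - xr T (tr T y) := sub_pos.2 (xr_strictMono T b0)
    have ey : sr T (Λ (tr T y)) - y = (xr T (Λ (tr T y)) - xr T (tr T y)) / P := by
      conv_lhs => rw [← sr_tr T y]
      rw [tr_sr]
      simp only [sr]
      ring
    show 0 < sr T (Λ (tr T y)) - y ∧ sr T (Λ (tr T y)) - y ≤ CH * ε ∧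
      ε ≤ CH * (sr T (Λ (tr T y)) - y)
    rw [ey]
    refine ⟨by positivity, ?_, ?_⟩
    · rw [div_le_iff₀ hP]
      have d1 : xr T (Λ (tr T y)) - xr T (tr T y) ≤ 12 * π * M ^ 3 * ε := by
        have : M * (Λ (tr T y) - tr T y) ≤ M * (2 * (6 * M ^ 2 * (π * ε))) := by
          apply mul_le_mul_of_nonneg_left _ hM0.le
          linarith only [b1]
        calc xr T (Λ (tr T y)) - xr T (tr T y) ≤ M * (Λ (tr T y) - tr T y) := c1
          _ ≤ M * (2 * (6 * M ^ 2 * (π * ε))) := this
          _ = 12 * π * M ^ 3 * ε := by ring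
      have d2 : 12 * π * M ^ 3 * ε = 12 * π * M ^ 3 / P * ε * P := by
        field_simp
      have d3 : 12 * π * M ^ 3 / P * ε * P ≤ CH * ε * P := by
        have : 12 * π * M ^ 3 / P ≤ CH := by linarith only [q1, q2, hCH]
        gcongr
      linarith only [d1, d2, d3]
    · have d1 : ε ≤ 3 * M ^ 3 / π * (xr T (Λ (tr T y)) - xr T (tr T y)) := by
        have a2 : 3 * M ^ 2 * (Λ (tr T y) - tr T y) ≤
            3 * M ^ 2 * (M * (xr T (Λ (tr T y)) - xr T (tr T y))) := by gcongr
        rw [div_mul_eq_mul_div, le_div_iff₀ hpi]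
        linarith only [a2, b2]
      have d2 : 3 * M ^ 3 / π * (xr T (Λ (tr T y)) - xr T (tr T y)) =
          3 * M ^ 3 * P / π * ((xr T (Λ (tr T y)) - xr T (tr T y)) / P) := by
        field_simp
      have d3 : 3 * M ^ 3 * P / π * ((xr T (Λ (tr T y)) - xr T (tr T y)) / P) ≤
          CH * ((xr T (Λ (tr T y)) - xr T (tr T y)) / P) := by
        have : 3 * M ^ 3 * P / π ≤ CH := by linarith only [q1, q2, hCH]
        have : 0 ≤ (xr T (Λ (tr T y)) - xr T (tr T y)) / P := by positivity
        gcongr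
      linarith only [d1, d2, d3]
  · intro y
    show K h (tr T y) ((tr T (sr T (Λi (tr T y))) + tr T y) / 2) =
      K h (tr T y) ((tr T y + tr T (sr T (Λ (tr T y)))) / 2)
    rw [tr_sr, tr_sr]
    have := hcrit (Λi (tr T y))
    rw [← hΛ, hi1] at this
    exact this

end Vale.Agent.P097.H402
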