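import Vale.Agent.P097.H402.Twist2
import Vale.Agent.P097.H402.Exist

/-! # P097 / Theorem A, assembly (helper402): real-analytic integrability up to the boundary from an
even analytic family of lines -/

set_option linter.all false

namespace Vale.Agent.P097.H402

open Set Filter Topology Vale.Agent.P097 Vale.Agent.P097.Reg

variable {φ : ℝ × ℝ → ℝ} {e : ℝ} {h : ℝ → ℝ}

/-- the lines of the family are the successive lines of billiard orbits -/
def ELF (h : ℝ → ℝ) (φ : ℝ × ℝ → ℝ) (e : ℝ) : Prop := ∀ x w : ℝ, 0 < w → w < e →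
  K h (φ (x, w)) ((φ (x - w, w) + φ (x, w)) / 2) = K h (φ (x, w)) ((φ (x, w) + φ (x + w, w)) / 2)

theorem mem_St_pos {ε w : ℝ} (x : ℝ) (h0 : 0 < w) (h1 : w < ε) : (x, w) ∈ St ε := by
  show |w| < ε
  rw [abs_of_pos h0]
  exact h1

theorem phi_strictMono (F : LineFam φ e) {ε : ℝ} (hε : ε ≤ e)
    (hx : ∀ q ∈ St ε, 0 < fderiv ℝ φ q (1, 0)) {w : ℝ} (hw : |w| < ε) :
    StrictMono (fun x => φ (x, w)) := by
  apply strictMono_of_deriv_pos
  intro x
  have h1 : (x, w) ∈ St ε := hw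
  rw [(LineFam.hasDerivAt_x (F.an _ (St_mono hε h1)).differentiableAt).deriv]
  exact hx _ h1

theorem DeF_mem (F : LineFam φ e) {ε : ℝ} (hε : ε ≤ e) (hε1 : ε ≤ 1)
    (hx : ∀ q ∈ St ε, 0 < fderiv ℝ φ q (1, 0)) {x w : ℝ} (h0 : 0 < w) (h1 : w < ε) :
    0 < DeF φ (x, w) ∧ DeF φ (x, w) < Real.pi := by
  have hw : |w| < ε := by rw [abs_of_pos h0]; exact h1
  have hm := phi_strictMono F hε hx hw
  have a1 : φ (x - w / 2, w) < φ (x + w / 2, w) := hm (by linarith)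
  have a2 : φ (x + w / 2, w) < φ (x - w / 2 + 1, w) := hm (by linarith)
  rw [F.per _ _ (lt_of_lt_of_le hw hε)] at a2
  simp only [DeF]
  constructor <;> linarith

theorem step_of_fam (F : LineFam φ e) (Ht : IsTable h) (hel : ELF h φ e) {ε : ℝ} (hε : ε ≤ e)
    (hε1 : ε ≤ 1) (hx : ∀ q ∈ St ε, 0 < fderiv ℝ φ q (1, 0)) {x w : ℝ} (h0 : 0 < w) (h1 : w < ε) :
    Step h (PsF φ (x, w)) (DeF φ (x, w)) (PsF φ (x + w, w)) (DeF φ (x + w, w)) := by
  obtain ⟨a1, a2⟩ := DeF_mem F hε hε1 hx (x := x) h0 h1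
  obtain ⟨b1, b2⟩ := DeF_mem F hε hε1 hx (x := x + w) h0 h1
  have e1 : x + w - w / 2 = x + w / 2 := by ring
  have e2 : PsF φ (x, w) + DeF φ (x, w) = φ (x + w / 2, w) := by
    simp only [PsF, DeF]; ring
  apply step_of_K Ht.1 Ht.2.1 Ht.2.2 a1 a2 b1 b2
  · simp only [PsF, DeF, e1]
    ring
  · have := hel (x + w / 2) w h0 (h1.trans_le hε)
    rw [e2]
    have e3 : x + w / 2 - w = x - w / 2 := by ring
    have e4 : x + w / 2 + w = x + w + w / 2 := by ring
    rw [e3, e4] at this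
    simp only [PsF, e1]
    exact this

theorem PsF_strictMono (F : LineFam φ e) {ε : ℝ} (hε : ε ≤ e) (hpd : PD φ ε) {w : ℝ}
    (hw : |w| < ε) : StrictMono (fun x => PsF φ (x, w)) := by
  apply strictMono_of_deriv_pos
  intro x
  have h1 : (x, w) ∈ St ε := hw
  rw [(LineFam.hasDerivAt_x (F.anP _ (St_mono hε h1)).differentiableAt).deriv]
  have := hpd _ h1 (1, 0) (by simp)
  simpa using this

theorem PsF_surj (F : LineFam φ e) {w : ℝ} (hw : |w| < e) :
    Function.Surjective (fun x => PsF φ (x, w)) := by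
  intro y
  have hcont : Continuous (fun x : ℝ => PsF φ (x, w)) := by
    rw [continuous_iff_continuousAt]
    intro x
    have h1 : (x, w) ∈ St e := hw
    exact (LineFam.hasDerivAt_x (F.anP _ h1).differentiableAt).continuousAt
  have hup : ∀ n : ℕ, PsF φ ((n : ℝ), w) = PsF φ (0, w) + n * (2 * Real.pi) := by
    intro n
    induction n with
    | zero => simp
    | succ n ih =>
      push_cast
      rw [F.perP hw, ih]
      ring
  have hdn : ∀ n : ℕ, PsF φ (-(n : ℝ), w) = PsF φ (0, w) - n * (2 * Real.pi) := by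
    intro n
    induction n with
    | zero => simp
    | succ n ih =>
      have := F.perP (x := -((n + 1 : ℕ) : ℝ)) hw
      have e1 : -((n + 1 : ℕ) : ℝ) + 1 = -(n : ℝ) := by push_cast; ring
      rw [e1, ih] at this
      push_cast at this ⊢
      linarith
  obtain ⟨n, hn⟩ := exists_nat_gt (|y - PsF φ (0, w)| / (2 * Real.pi))
  rw [div_lt_iff₀ (by positivity)] at hn
  have hab := abs_le.1 hn.le
  have hnn : (0 : ℝ) ≤ n := Nat.cast_nonneg n
  have hmem : y ∈ Icc (PsF φ (-(n : ℝ), w)) (PsF φ ((n : ℝ), w)) := by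
    rw [hdn, hup]
    constructor <;> linarith [hab.1, hab.2]
  obtain ⟨x, -, hx⟩ := intermediate_value_Icc (f := fun x : ℝ => PsF φ (x, w))
    (show -(n : ℝ) ≤ n by linarith) hcont.continuousOn hmem
  exact ⟨x, hx⟩

/-- the leaves: analytic invariant graphs -/
theorem exists_graph (F : LineFam φ e) (Ht : IsTable h) (hel : ELF h φ e) {ε : ℝ} (hε : ε ≤ e)
    (hε1 : ε ≤ 1) (hx : ∀ q ∈ St ε, 0 < fderiv ℝ φ q (1, 0)) (hpd : PD φ ε) {w : ℝ} (h0 : 0 < w)
    (h1 : w < ε) : ∃ f : ℝ → ℝ, InvGraph h f ∧ (∀ x, AnalyticAt ℝ f x) ∧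
      ∀ x, f (PsF φ (x, w)) = DeF φ (x, w) := by
  have hw : |w| < ε := by rw [abs_of_pos h0]; exact h1
  have hwe : |w| < e := hw.trans_le hε
  have hm := PsF_strictMono F hε hpd hw
  have hs := PsF_surj F hwe
  set O : ℝ ≃o ℝ := hm.orderIsoOfSurjective _ hs with hO
  have hO1 : ∀ x, O x = PsF φ (x, w) := fun x => rfl
  set Hm : ℝ ≃ₜ ℝ := O.toHomeomorph with hHm
  have hinv : ∀ x, Hm.symm (PsF φ (x, w)) = x := fun x => Hm.symm_apply_apply x
  have hanX : ∀ y, AnalyticAt ℝ Hm.symm y := by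
    intro y
    obtain ⟨x, rfl⟩ := hs y
    have hxm : (x, w) ∈ St ε := hw
    have hanP : AnalyticAt ℝ (fun x => PsF φ (x, w)) x := by
      have a1 : AnalyticAt ℝ (fun x : ℝ => (x, w)) x := analyticAt_id.prod analyticAt_const
      exact AnalyticAt.comp' (F.anP (x, w) (St_mono hε hxm)) a1
    have hd := LineFam.hasDerivAt_x (F.anP _ (St_mono hε hxm)).differentiableAt
    have hdp : fderiv ℝ (PsF φ) (x, w) (1, 0) ≠ 0 := by
      have := hpd _ hxm (1, 0) (by simp)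
      simp only [mul_one, mul_zero, add_zero] at this
      exact this.ne'
    have hR : (Hm.toOpenPartialHomeomorph : ℝ → ℝ) = fun x => PsF φ (x, w) := rfl
    have := Hm.toOpenPartialHomeomorph.analyticAt_symm' (a := x) (by simp)
      (by rw [hR]; exact hanP)
      (i := (ContinuousLinearEquiv.unitsEquivAut ℝ) (Units.mk0 _ hdp)) (by
        rw [hR]
        have h2 := hd.hasFDerivAt.fderiv
        rw [h2]
        ext
        simp)
    exact this
  refine ⟨fun ψ => DeF φ (Hm.symm ψ, w), ⟨?_, ?_, ?_, ?_⟩, ?_, ?_⟩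
  · rw [continuous_iff_continuousAt]
    intro y
    have h2 : (Hm.symm y, w) ∈ St e := hwe
    exact ContinuousAt.comp (f := fun y => (Hm.symm y, w)) (F.anD _ h2).continuousAt
      ((hanX y).continuousAt.prodMk continuousAt_const)
  · intro y
    have h2 : Hm.symm (y + 2 * Real.pi) = Hm.symm y + 1 := by
      rw [Homeomorph.symm_apply_eq]
      show y + 2 * Real.pi = PsF φ (Hm.symm y + 1, w)
      rw [F.perP hwe]
      have : PsF φ (Hm.symm y, w) = y := Hm.apply_symm_apply y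
      rw [this]
    simp only [h2, F.perD hwe]
  · intro y
    exact DeF_mem F hε hε1 hx h0 h1
  · intro y
    refine ⟨PsF φ (Hm.symm y + w, w), ?_⟩
    have := step_of_fam F Ht hel hε hε1 hx (x := Hm.symm y) h0 h1
    have h3 : PsF φ (Hm.symm y, w) = y := Hm.apply_symm_apply y
    rw [h3] at this
    show Step h y (DeF φ (Hm.symm y, w)) (PsF φ (Hm.symm y + w, w))
      (DeF φ (Hm.symm (PsF φ (Hm.symm y + w, w)), w))
    rw [hinv]
    exact this
  · intro y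
    have h2 : (Hm.symm y, w) ∈ St e := hwe
    exact AnalyticAt.comp' (F.anD _ h2) ((hanX y).prod analyticAt_const)
  · intro x
    simp only [hinv]

/-- bounded difference with the rigid rotation -/
theorem PsF_bdd (F : LineFam φ e) {w : ℝ} (hw : |w| < e) :
    ∃ C : ℝ, ∀ x, |PsF φ (x, w) - 2 * Real.pi * x| ≤ C := by
  have hcont : Continuous (fun x : ℝ => PsF φ (x, w) - 2 * Real.pi * x) := by
    rw [continuous_iff_continuousAt]
    intro x
    have h1 : (x, w) ∈ St e := hw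
    exact (LineFam.hasDerivAt_x (F.anP _ h1).differentiableAt).continuousAt.sub
      (by fun_prop : Continuous fun x : ℝ => 2 * Real.pi * x).continuousAt
  obtain ⟨C, hC⟩ := (isCompact_Icc (a := (0 : ℝ)) (b := 1)).exists_bound_of_continuousOn
    hcont.continuousOn
  refine ⟨C, fun x => ?_⟩
  have hp : Function.Periodic (fun x : ℝ => PsF φ (x, w) - 2 * Real.pi * x) 1 := by
    intro x
    show PsF φ (x + 1, w) - 2 * Real.pi * (x + 1) = PsF φ (x, w) - 2 * Real.pi * x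
    rw [F.perP hw]
    ring
  have h1 := hp.sub_zsmul_eq ⌊x⌋ (x := x)
  simp only [zsmul_eq_mul, mul_one] at h1
  have h2 : x - ⌊x⌋ ∈ Icc (0 : ℝ) 1 := ⟨by linarith [Int.floor_le x],
    by linarith [Int.lt_floor_add_one x]⟩
  have := hC _ h2
  rw [h1, Real.norm_eq_abs] at this
  exact this

/-- **uniqueness**: every low invariant graph is a leaf of the family -/
theorem graph_unique (F : LineFam φ e) (Ht : IsTable h) (hel : ELF h φ e) {ε η : ℝ} (hε : ε ≤ e)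
    (hε1 : ε ≤ 1) (hx : ∀ q ∈ St ε, 0 < fderiv ℝ φ q (1, 0)) (hpd : PD φ ε)
    {J : ℝ × ℝ → ℝ × ℝ} (hJ1 : ∀ p ∈ St η, J p ∈ St ε ∧ Ph φ (J p) = p)
    (hJ2 : ∀ q ∈ St ε, J (Ph φ q) = q) {f : ℝ → ℝ} (G : InvGraph h f) (hf : ∀ ψ, f ψ < η) :
    ∃ w : ℝ, 0 < w ∧ w < ε ∧ ∀ x, f (PsF φ (x, w)) = DeF φ (x, w) := by
  have H := Ht.adm
  obtain ⟨Fm, hS, h1, h2, hm, hs⟩ := G.exists_F' H
  have hfr := G.2.2.1
  have hmem : ∀ ψ, (ψ, f ψ) ∈ St η := fun ψ => by
    show |f ψ| < η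
    rw [abs_of_pos (hfr ψ).1]
    exact hf ψ
  set q : ℝ → ℝ × ℝ := fun ψ => J (ψ, f ψ) with hq
  have hq1 : ∀ ψ, q ψ ∈ St ε := fun ψ => (hJ1 _ (hmem ψ)).1
  have hq2 : ∀ ψ, PsF φ (q ψ) = ψ := fun ψ => congrArg Prod.fst (hJ1 _ (hmem ψ)).2
  have hq3 : ∀ ψ, DeF φ (q ψ) = f ψ := fun ψ => congrArg Prod.snd (hJ1 _ (hmem ψ)).2
  have hqpos : ∀ ψ, 0 < (q ψ).2 := by
    intro ψ
    by_contra hcon
    push Not at hcon
    have h3 := hq3 ψ
    have h4 := (hfr ψ).1
    rcases eq_or_lt_of_le hcon with h5 | h5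
    · have : q ψ = ((q ψ).1, 0) := Prod.ext rfl h5
      rw [this, LineFam.D0] at h3
      linarith
    · have h6 : |(q ψ).2| < ε := hq1 ψ
      have h7 : -(q ψ).2 < ε := by rw [abs_of_neg h5] at h6; exact h6
      have h8 := (DeF_mem F hε hε1 hx (x := (q ψ).1) (neg_pos.2 h5) h7).1
      rw [F.oddD (h6.trans_le hε)] at h8
      have : DeF φ ((q ψ).1, (q ψ).2) = f ψ := h3
      linarith
  have hqlt : ∀ ψ, (q ψ).2 < ε := fun ψ => lt_of_abs_lt (hq1 ψ)
  -- the dynamics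
  have hdyn : ∀ ψ, q (Fm ψ) = ((q ψ).1 + (q ψ).2, (q ψ).2) := by
    intro ψ
    have s1 := step_of_fam F Ht hel hε hε1 hx (x := (q ψ).1) (hqpos ψ) (hqlt ψ)
    have e1 : PsF φ ((q ψ).1, (q ψ).2) = ψ := hq2 ψ
    have e2 : DeF φ ((q ψ).1, (q ψ).2) = f ψ := hq3 ψ
    rw [e1, e2] at s1
    have s2 := hS ψ
    have e3 := Step.unique H s1 s2
    have e4 : DeF φ ((q ψ).1 + (q ψ).2, (q ψ).2) = f (Fm ψ) := by
      have t1 := s1.2.2.2.2.1
      have t2 := s2.2.2.2.2.1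
      linarith
    have e5 : Ph φ ((q ψ).1 + (q ψ).2, (q ψ).2) = (Fm ψ, f (Fm ψ)) := Prod.ext e3 e4
    show J (Fm ψ, f (Fm ψ)) = _
    rw [← e5]
    exact hJ2 _ (hq1 ψ)
  have hiter : ∀ (n : ℕ) (ψ : ℝ), q (Fm^[n] ψ) = ((q ψ).1 + n * (q ψ).2, (q ψ).2) := by
    intro n
    induction n with
    | zero => intro ψ; simp
    | succ n ih =>
      intro ψ
      rw [Function.iterate_succ_apply', hdyn, ih]
      refine Prod.ext ?_ rfl
      show (q ψ).1 + (n : ℝ) * (q ψ).2 + (q ψ).2 = (q ψ).1 + ((n + 1 : ℕ) : ℝ) * (q ψ).2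
      push_cast
      ring
  have hFper : ∀ x, Fm (x + 2 * Real.pi) = Fm x + 2 * Real.pi := F_per H G h1 h2
  have hmono : ∀ n : ℕ, StrictMono (Fm^[n]) := fun n => hm.iterate n
  have hnper : ∀ (n : ℕ) (x : ℝ), Fm^[n] (x + 2 * Real.pi) = Fm^[n] x + 2 * Real.pi := by
    intro n
    induction n with
    | zero => intro x; rfl
    | succ n ih =>
      intro x
      rw [Function.iterate_succ_apply', Function.iterate_succ_apply', ih, hFper]
  -- comparison of rotation numbers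
  have hcmp : ∀ ψ ψ' : ℝ, ψ ≤ ψ' + 2 * Real.pi → (q ψ).2 ≤ (q ψ').2 := by
    intro ψ ψ' hle
    obtain ⟨C, hC⟩ := PsF_bdd F (w := (q ψ).2) (lt_of_lt_of_le (hq1 ψ) hε)
    obtain ⟨C', hC'⟩ := PsF_bdd F (w := (q ψ').2) (lt_of_lt_of_le (hq1 ψ') hε)
    have key : ∀ n : ℕ, n * (2 * Real.pi * ((q ψ).2 - (q ψ').2)) ≤
        C + C' + 2 * Real.pi - 2 * Real.pi * (q ψ).1 + 2 * Real.pi * (q ψ').1 := by
      intro n
      have a1 := (hmono n).monotone hle
      rw [hnper] at a1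
      have b1 : Fm^[n] ψ = PsF φ ((q ψ).1 + n * (q ψ).2, (q ψ).2) := by
        rw [← hiter n ψ, hq2]
      have b2 : Fm^[n] ψ' = PsF φ ((q ψ').1 + n * (q ψ').2, (q ψ').2) := by
        rw [← hiter n ψ', hq2]
      have c1 := (abs_le.1 (hC ((q ψ).1 + n * (q ψ).2))).1
      have c2 := (abs_le.1 (hC' ((q ψ').1 + n * (q ψ').2))).2
      rw [← b1] at c1
      rw [← b2] at c2
      have d : (n : ℝ) * (2 * Real.pi * ((q ψ).2 - (q ψ').2)) =
        2 * Real.pi * ((q ψ).1 + n * (q ψ).2) - 2 * Real.pi * ((q ψ').1 + n * (q ψ').2)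
          - 2 * Real.pi * (q ψ).1 + 2 * Real.pi * (q ψ').1 := by ring
      rw [d]
      linarith
    by_contra hcon
    push Not at hcon
    have hpos : 0 < 2 * Real.pi * ((q ψ).2 - (q ψ').2) := by
      have := sub_pos.2 hcon
      positivity
    obtain ⟨n, hn⟩ := exists_nat_gt ((C + C' + 2 * Real.pi - 2 * Real.pi * (q ψ).1 +
      2 * Real.pi * (q ψ').1) / (2 * Real.pi * ((q ψ).2 - (q ψ').2)))
    rw [div_lt_iff₀ hpos] at hn
    have := key n
    linarith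
  have hqper : ∀ (k : ℤ) (ψ : ℝ), (q (ψ + k * (2 * Real.pi))).2 = (q ψ).2 := by
    intro k
    have hone : ∀ ψ : ℝ, (q (ψ + 2 * Real.pi)).2 = (q ψ).2 := by
      intro ψ
      have e1 : PsF φ ((q ψ).1 + 1, (q ψ).2) = ψ + 2 * Real.pi := by
        rw [F.perP (lt_of_lt_of_le (hq1 ψ) hε)]
        have : PsF φ ((q ψ).1, (q ψ).2) = ψ := hq2 ψ
        rw [this]
      have e2 : DeF φ ((q ψ).1 + 1, (q ψ).2) = f (ψ + 2 * Real.pi) := by
        rw [F.perD (lt_of_lt_of_le (hq1 ψ) hε), G.2.1]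
        exact hq3 ψ
      have e3 : Ph φ ((q ψ).1 + 1, (q ψ).2) = (ψ + 2 * Real.pi, f (ψ + 2 * Real.pi)) :=
        Prod.ext e1 e2
      show (J (ψ + 2 * Real.pi, f (ψ + 2 * Real.pi))).2 = _
      rw [← e3, hJ2 _ (show ((q ψ).1 + 1, (q ψ).2) ∈ St ε from hq1 ψ)]
    induction k using Int.induction_on with
    | zero => intro ψ; simp
    | succ k ih =>
      intro ψ
      have e0 : ψ + (((k : ℤ) + 1 : ℤ) : ℝ) * (2 * Real.pi) =
        (ψ + ((k : ℤ) : ℝ) * (2 * Real.pi)) + 2 * Real.pi := by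
        push_cast
        ring
      rw [e0, hone]
      exact ih ψ
    | pred k ih =>
      intro ψ
      have e0 : (ψ + ((-(k : ℤ) - 1 : ℤ) : ℝ) * (2 * Real.pi)) + 2 * Real.pi =
        ψ + ((-(k : ℤ) : ℤ) : ℝ) * (2 * Real.pi) := by
        push_cast
        ring
      rw [← hone, e0]
      exact ih ψ
  have hconst : ∀ ψ ψ' : ℝ, (q ψ).2 = (q ψ').2 := by
    have half : ∀ ψ ψ' : ℝ, (q ψ).2 ≤ (q ψ').2 := by
      intro ψ ψ'
      obtain ⟨k, hk⟩ := exists_int_gt ((ψ - ψ') / (2 * Real.pi))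
      have hpi := Real.pi_pos
      rw [div_lt_iff₀ (by positivity)] at hk
      have := hcmp ψ (ψ' + k * (2 * Real.pi)) (by linarith)
      rw [hqper] at this
      exact this
    exact fun ψ ψ' => le_antisymm (half _ _) (half _ _)
  refine ⟨(q 0).2, hqpos 0, hqlt 0, fun x => ?_⟩
  set ψ := PsF φ (x, (q 0).2) with hψ
  have hw0 : |(q 0).2| < ε := hq1 0
  have e1 : (q ψ).2 = (q 0).2 := hconst ψ 0
  have e2 : PsF φ ((q ψ).1, (q 0).2) = ψ := by
    rw [← e1]
    exact hq2 ψ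
  have e3 : (q ψ).1 = x := (PsF_strictMono F hε hpd hw0).injective (by
    show PsF φ ((q ψ).1, (q 0).2) = PsF φ (x, (q 0).2)
    rw [e2])
  rw [← hq3 ψ, ← e3, ← e1]

end Vale.Agent.P097.H402
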