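import Vale.Agent.P097.H402.FamReal
import Vale.Agent.P097.H202.CTab

/-! # P097 / Theorem A, assembly: analytic integrability of the billiard up to the boundary -/

set_option linter.all false

namespace Vale.Agent.P097.H402

open Set Filter Topology Vale.Agent.P097 Vale.Agent.P097.TA Vale.Agent.P097.H202
open scoped ComplexConjugate

/-- **analytic integrability up to and across the boundary**: in analytic coordinates `(x, w)`,
defined for `|w| < ε`, periodic in `x`, reversing with `w ↦ -w` at the boundary `w = 0`, the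
billiard is `(x, w) ↦ (x + w, w)`; the curves `w = const` are analytic invariant graphs and every
invariant graph which comes within the angle `η` of the boundary is one of them. -/
def IntBd (h : ℝ → ℝ) : Prop :=
  ∃ (ε η : ℝ) (Φ J : ℝ × ℝ → ℝ × ℝ), 0 < ε ∧ 0 < η ∧
    AnalyticOnNhd ℝ Φ {q | |q.2| < ε} ∧ AnalyticOnNhd ℝ J {p | |p.2| < η} ∧
    (∀ p : ℝ × ℝ, |p.2| < η → |(J p).2| < ε ∧ Φ (J p) = p) ∧
    (∀ q : ℝ × ℝ, |q.2| < ε → J (Φ q) = q) ∧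
    (∀ x w : ℝ, |w| < ε → Φ (x + 1, w) = ((Φ (x, w)).1 + 2 * Real.pi, (Φ (x, w)).2)) ∧
    (∀ x w : ℝ, |w| < ε → Φ (x, -w) = ((Φ (x, w)).1, -(Φ (x, w)).2)) ∧
    (∀ x w : ℝ, 0 < w → w < ε →
      Step h (Φ (x, w)).1 (Φ (x, w)).2 (Φ (x + w, w)).1 (Φ (x + w, w)).2) ∧
    (∀ w : ℝ, 0 < w → w < ε → ∃ f : ℝ → ℝ, InvGraph h f ∧ (∀ x, AnalyticAt ℝ f x) ∧
      ∀ x, f (Φ (x, w)).1 = (Φ (x, w)).2) ∧
    (∀ f : ℝ → ℝ, InvGraph h f → (∃ ψ, f ψ < η) →
      ∃ w : ℝ, 0 < w ∧ w < ε ∧ ∀ x, f (Φ (x, w)).1 = (Φ (x, w)).2)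

variable {h : ℝ → ℝ} {κ ρ Λ L : ℝ} {H HH lam Φ : ℂ → ℂ} {l φ : ℝ → ℝ}
variable {b θ : ℂ → ℂ → ℂ} {L' r e : ℝ}

theorem intBd (T : LD h κ ρ Λ L H HH lam Φ l φ) {ρ' : ℝ} (hρ' : 0 < ρ')
    (hb : IsGen ρ Λ H HH Φ ρ' b) (F : Fam b L' r e θ) : IntBd h := by
  obtain ⟨e', he', hee, hel⟩ := exists_ELF T hρ' hb F
  have LF := lineFam T F he' hee
  obtain ⟨ε₀, hε₀, hεe, hpd₀, hx₀⟩ := LF.chart
  set ε := min ε₀ 1 with hε
  have hε0 : 0 < ε := by positivity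
  have hεe' : ε ≤ e' := (min_le_left _ _).trans hεe
  have hpd : PD (phR φ θ) ε := fun q hq => hpd₀ q (St_mono (min_le_left _ _) hq)
  have hx : ∀ q ∈ St ε, 0 < fderiv ℝ (phR φ θ) q (1, 0) := fun q hq =>
    hx₀ q (St_mono (min_le_left _ _) hq)
  have hε1 : ε ≤ 1 := min_le_right _ _
  obtain ⟨η₀, J, hη₀, hJa, hJ1, hJ2⟩ := exists_inverse LF hε0 hεe' hpd
  obtain ⟨M, β, C, -, -, -, -, hC, hz⟩ := T.exists_ctab
  obtain ⟨η₁, hη₁, hH⟩ := harnack C T.tab.adm hC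
  have hM1 := C.M1
  have hM0 : 0 < M := by linarith
  refine ⟨ε, min (min η₀ η₁) (η₀ / (6 * M ^ 2)), Ph (phR φ θ), J, hε0, by positivity,
    fun q hq => Ph_analytic LF (St_mono hεe' hq), fun p hp => hJa p ?_, ?_, ?_, ?_, ?_, ?_, ?_, ?_⟩
  · have hp' : |p.2| < min (min η₀ η₁) (η₀ / (6 * M ^ 2)) := hp
    exact lt_of_lt_of_le hp' ((min_le_left _ _).trans (min_le_left _ _))
  · intro p hp
    exact hJ1 p (lt_of_lt_of_le hp ((min_le_left _ _).trans (min_le_left _ _)))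
  · intro q hq
    exact hJ2 q hq
  · intro x w hw
    have hw' : |w| < e' := hw.trans_le hεe'
    exact Prod.ext (LF.perP hw') (LF.perD hw')
  · intro x w hw
    have hw' : |w| < e' := hw.trans_le hεe'
    exact Prod.ext (LF.evP hw') (LF.oddD hw')
  · intro x w h0 h1
    exact step_of_fam LF T.tab hel hεe' hε1 hx h0 h1
  · intro w h0 h1
    exact exists_graph LF T.tab hel hεe' hε1 hx hpd h0 h1
  · rintro f G ⟨ψ₀, hψ₀⟩
    have hlt : ∀ ψ, f ψ < η₀ := by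
      intro ψ
      have h1 := hH f G ψ₀ (hψ₀.trans_le ((min_le_left _ _).trans (min_le_right _ _))).le ψ
      have h2 := hψ₀.trans_le (min_le_right _ _)
      rw [lt_div_iff₀ (by positivity)] at h2
      linarith
    exact graph_unique LF T.tab hel hεe' hε1 hx hpd hJ1 hJ2 G hlt

end Vale.Agent.P097.H402
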