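import Mathlib

/-! # P097 / Theorem A, assembly (helper402): from an even analytic family of lines to an analytic
chart of the phase annulus, up to and across the boundary (real analysis only) -/

set_option linter.all false

namespace Vale.Agent.P097.H402

open Set Filter Topology

/-- the strip of the real `(x, w)`-plane -/
def St (e : ℝ) : Set (ℝ × ℝ) := {q | |q.2| < e}

theorem isOpen_St (e : ℝ) : IsOpen (St e) := isOpen_lt (by fun_prop) continuous_const

theorem convex_St (e : ℝ) : Convex ℝ (St e) := by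
  have : St e = (fun q : ℝ × ℝ => q.2) ⁻¹' (Metric.ball 0 e) := by
    ext q
    simp [St]
  rw [this]
  exact (convex_ball (0 : ℝ) e).linear_preimage (LinearMap.snd ℝ ℝ ℝ)

theorem St_mono {e e' : ℝ} (h : e' ≤ e) : St e' ⊆ St e := fun q hq => lt_of_lt_of_le hq h

/-- an open set of the strip which is invariant under the translation by one contains a strip -/
theorem exists_strip {U : Set (ℝ × ℝ)} (hU : IsOpen U) (h0 : ∀ x : ℝ, (x, (0 : ℝ)) ∈ U)
    (hp : ∀ x w : ℝ, (x, w) ∈ U ↔ (x + 1, w) ∈ U) : ∃ ε > 0, St ε ⊆ U := by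
  have hK : IsCompact (Icc (0 : ℝ) 1) := isCompact_Icc
  obtain ⟨u, v, hu, hv, huK, hv0, huv⟩ := generalized_tube_lemma (s := Icc (0 : ℝ) 1)
    (t := {(0 : ℝ)}) hK isCompact_singleton (n := U) hU (by
      rintro ⟨x, w⟩ ⟨-, hw⟩
      rw [mem_singleton_iff] at hw
      simp only at hw
      rw [hw]
      exact h0 x)
  have hv0' : (0 : ℝ) ∈ v := hv0 rfl
  obtain ⟨ε, hε, hball⟩ := Metric.isOpen_iff.1 hv 0 hv0'
  have hint : ∀ (k : ℤ) (x w : ℝ), (x, w) ∈ U ↔ (x + k, w) ∈ U := by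
    intro k
    induction k using Int.induction_on with
    | zero => intro x w; simp
    | succ k ih =>
      intro x w
      rw [ih x w, hp]
      push_cast
      rw [add_assoc]
    | pred k ih =>
      intro x w
      rw [ih x w, hp (x + (-(k : ℤ) - 1 : ℤ)) w]
      push_cast
      have : x + (-(k : ℝ) - 1) + 1 = x + -(k : ℝ) := by ring
      rw [this]
  refine ⟨ε, hε, ?_⟩
  rintro ⟨x, w⟩ hq
  rw [hint (-⌊x⌋) x w]
  apply huv
  refine ⟨huK ⟨?_, ?_⟩, hball ?_⟩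
  · have := Int.floor_le x
    push_cast
    linarith
  · have := Int.lt_floor_add_one x
    push_cast
    linarith
  · simpa [St] using hq

variable {φ : ℝ × ℝ → ℝ} {e : ℝ}

/-- position (normal angle) of the bounce at phase `x` -/
noncomputable def PsF (φ : ℝ × ℝ → ℝ) (q : ℝ × ℝ) : ℝ :=
  (φ (q.1 - q.2 / 2, q.2) + φ (q.1 + q.2 / 2, q.2)) / 2

/-- half of the turn of the bounce at phase `x` -/
noncomputable def DeF (φ : ℝ × ℝ → ℝ) (q : ℝ × ℝ) : ℝ :=
  (φ (q.1 + q.2 / 2, q.2) - φ (q.1 - q.2 / 2, q.2)) / 2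

/-- an even analytic family of lines, up to the boundary -/
structure LineFam (φ : ℝ × ℝ → ℝ) (e : ℝ) : Prop where
  he : 0 < e
  an : AnalyticOnNhd ℝ φ (St e)
  per : ∀ x w : ℝ, |w| < e → φ (x + 1, w) = φ (x, w) + 2 * Real.pi
  ev : ∀ x w : ℝ, |w| < e → φ (x, -w) = φ (x, w)
  pos : ∀ x : ℝ, 0 < fderiv ℝ φ (x, 0) (1, 0)

namespace LineFam

variable (F : LineFam φ e)
include F

theorem anP : AnalyticOnNhd ℝ (PsF φ) (St e) := by
  intro q hq
  have h1 : AnalyticAt ℝ (fun q : ℝ × ℝ => (q.1 - q.2 / 2, q.2)) q :=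
    (analyticAt_fst.sub (analyticAt_snd.mul analyticAt_const)).prod analyticAt_snd
  have h2 : AnalyticAt ℝ (fun q : ℝ × ℝ => (q.1 + q.2 / 2, q.2)) q :=
    (analyticAt_fst.add (analyticAt_snd.mul analyticAt_const)).prod analyticAt_snd
  have a1 : AnalyticAt ℝ (fun q : ℝ × ℝ => φ (q.1 - q.2 / 2, q.2)) q :=
    AnalyticAt.comp' (F.an (q.1 - q.2 / 2, q.2) hq) h1
  have a2 : AnalyticAt ℝ (fun q : ℝ × ℝ => φ (q.1 + q.2 / 2, q.2)) q :=
    AnalyticAt.comp' (F.an (q.1 + q.2 / 2, q.2) hq) h2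
  exact (a1.add a2).mul analyticAt_const

theorem anD : AnalyticOnNhd ℝ (DeF φ) (St e) := by
  intro q hq
  have h1 : AnalyticAt ℝ (fun q : ℝ × ℝ => (q.1 - q.2 / 2, q.2)) q :=
    (analyticAt_fst.sub (analyticAt_snd.mul analyticAt_const)).prod analyticAt_snd
  have h2 : AnalyticAt ℝ (fun q : ℝ × ℝ => (q.1 + q.2 / 2, q.2)) q :=
    (analyticAt_fst.add (analyticAt_snd.mul analyticAt_const)).prod analyticAt_snd
  have a1 : AnalyticAt ℝ (fun q : ℝ × ℝ => φ (q.1 - q.2 / 2, q.2)) q :=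
    AnalyticAt.comp' (F.an (q.1 - q.2 / 2, q.2) hq) h1
  have a2 : AnalyticAt ℝ (fun q : ℝ × ℝ => φ (q.1 + q.2 / 2, q.2)) q :=
    AnalyticAt.comp' (F.an (q.1 + q.2 / 2, q.2) hq) h2
  exact (a2.sub a1).mul analyticAt_const

theorem perP {x w : ℝ} (hw : |w| < e) : PsF φ (x + 1, w) = PsF φ (x, w) + 2 * Real.pi := by
  simp only [PsF]
  have e1 : x + 1 - w / 2 = (x - w / 2) + 1 := by ring
  have e2 : x + 1 + w / 2 = (x + w / 2) + 1 := by ring
  rw [e1, e2, F.per _ _ hw, F.per _ _ hw]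
  ring

theorem perD {x w : ℝ} (hw : |w| < e) : DeF φ (x + 1, w) = DeF φ (x, w) := by
  simp only [DeF]
  have e1 : x + 1 - w / 2 = (x - w / 2) + 1 := by ring
  have e2 : x + 1 + w / 2 = (x + w / 2) + 1 := by ring
  rw [e1, e2, F.per _ _ hw, F.per _ _ hw]
  ring

theorem evP {x w : ℝ} (hw : |w| < e) : PsF φ (x, -w) = PsF φ (x, w) := by
  simp only [PsF]
  have e1 : x - -w / 2 = x + w / 2 := by ring
  have e2 : x + -w / 2 = x - w / 2 := by ring
  rw [e1, e2, F.ev _ _ hw, F.ev _ _ hw]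
  ring

theorem oddD {x w : ℝ} (hw : |w| < e) : DeF φ (x, -w) = -DeF φ (x, w) := by
  simp only [DeF]
  have e1 : x - -w / 2 = x + w / 2 := by ring
  have e2 : x + -w / 2 = x - w / 2 := by ring
  rw [e1, e2, F.ev _ _ hw, F.ev _ _ hw]
  ring

omit F in
theorem D0 (x : ℝ) : DeF φ (x, 0) = 0 := by simp [DeF]

omit F in
theorem P0 (x : ℝ) : PsF φ (x, 0) = φ (x, 0) := by simp [PsF]

theorem mem0 (x : ℝ) : (x, (0 : ℝ)) ∈ St e := by
  show |(0 : ℝ)| < e
  rw [abs_zero]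
  exact F.he

theorem dφ (x : ℝ) : DifferentiableAt ℝ φ (x, 0) := (F.an _ (F.mem0 x)).differentiableAt

theorem dP (x : ℝ) : DifferentiableAt ℝ (PsF φ) (x, 0) := (F.anP _ (F.mem0 x)).differentiableAt

theorem dD (x : ℝ) : DifferentiableAt ℝ (DeF φ) (x, 0) := (F.anD _ (F.mem0 x)).differentiableAt

omit F in
theorem hasDerivAt_x {f : ℝ × ℝ → ℝ} {x w : ℝ} (h : DifferentiableAt ℝ f (x, w)) :
    HasDerivAt (fun t => f (t, w)) (fderiv ℝ f (x, w) (1, 0)) x := by
  have h1 : HasDerivAt (fun t : ℝ => (t, w)) ((1 : ℝ), (0 : ℝ)) x :=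
    (hasDerivAt_id x).prodMk (hasDerivAt_const x w)
  exact h.hasFDerivAt.comp_hasDerivAt x h1

omit F in
theorem hasDerivAt_w {f : ℝ × ℝ → ℝ} {x w : ℝ} (h : DifferentiableAt ℝ f (x, w)) :
    HasDerivAt (fun t => f (x, t)) (fderiv ℝ f (x, w) (0, 1)) w := by
  have h1 : HasDerivAt (fun t : ℝ => (x, t)) ((0 : ℝ), (1 : ℝ)) w :=
    (hasDerivAt_const w x).prodMk (hasDerivAt_id w)
  exact h.hasFDerivAt.comp_hasDerivAt w h1

theorem P_x (x : ℝ) : fderiv ℝ (PsF φ) (x, 0) (1, 0) = fderiv ℝ φ (x, 0) (1, 0) := by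
  have h1 := hasDerivAt_x (F.dP x)
  have h2 := hasDerivAt_x (F.dφ x)
  have e1 : (fun t => PsF φ (t, 0)) = fun t => φ (t, 0) := by
    funext t
    exact P0 t
  rw [e1] at h1
  exact h1.unique h2

theorem D_x (x : ℝ) : fderiv ℝ (DeF φ) (x, 0) (1, 0) = 0 := by
  have h1 := hasDerivAt_x (F.dD x)
  have e1 : (fun t => DeF φ (t, 0)) = fun t => (0 : ℝ) := by
    funext t
    exact D0 t
  rw [e1] at h1
  exact h1.unique (hasDerivAt_const x 0)

omit F in
theorem even_deriv {f : ℝ → ℝ} {a : ℝ} (hf : HasDerivAt f a 0) (he : ∀ᶠ w in 𝓝 (0 : ℝ), f (-w) = f w) :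
    a = 0 := by
  have hf' : HasDerivAt f a (-0) := by rwa [neg_zero]
  have h1 : HasDerivAt (fun w => f (-w)) (a * -1) 0 := hf'.comp (0 : ℝ) (hasDerivAt_neg (0 : ℝ))
  have h2 : HasDerivAt f (a * -1) 0 := h1.congr_of_eventuallyEq (by
    filter_upwards [he] with w hw
    exact hw.symm)
  have := hf.unique h2
  linarith

theorem ev_small : ∀ᶠ w in 𝓝 (0 : ℝ), |w| < e := by
  have : Tendsto (fun w : ℝ => |w|) (𝓝 0) (𝓝 0) := by
    simpa using (continuous_abs.tendsto (0 : ℝ))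
  exact this.eventually_lt_const F.he

theorem φ_w (x : ℝ) : fderiv ℝ φ (x, 0) (0, 1) = 0 := by
  apply even_deriv (hasDerivAt_w (F.dφ x))
  filter_upwards [F.ev_small] with w hw
  exact F.ev x w hw

theorem P_w (x : ℝ) : fderiv ℝ (PsF φ) (x, 0) (0, 1) = 0 := by
  apply even_deriv (hasDerivAt_w (F.dP x))
  filter_upwards [F.ev_small] with w hw
  exact F.evP hw

theorem D_w (x : ℝ) : fderiv ℝ (DeF φ) (x, 0) (0, 1) = fderiv ℝ φ (x, 0) (1, 0) / 2 := by
  have h1 := hasDerivAt_w (F.dD x)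
  have hφ := (F.dφ x).hasFDerivAt
  have c1 : HasDerivAt (fun w : ℝ => (x + w / 2, w)) ((1 / 2 : ℝ), (1 : ℝ)) 0 := by
    refine HasDerivAt.prodMk ?_ (hasDerivAt_id 0)
    exact ((hasDerivAt_id (0 : ℝ)).div_const 2).const_add x
  have c2 : HasDerivAt (fun w : ℝ => (x - w / 2, w)) ((-(1 / 2) : ℝ), (1 : ℝ)) 0 := by
    refine HasDerivAt.prodMk ?_ (hasDerivAt_id 0)
    have := ((hasDerivAt_id (0 : ℝ)).div_const 2).const_sub x
    exact this
  have d1 : HasDerivAt (fun w : ℝ => φ (x + w / 2, w)) (fderiv ℝ φ (x, 0) (1 / 2, 1)) 0 :=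
    hφ.comp_hasDerivAt_of_eq (0 : ℝ) c1 (by simp)
  have d2 : HasDerivAt (fun w : ℝ => φ (x - w / 2, w)) (fderiv ℝ φ (x, 0) (-(1 / 2), 1)) 0 :=
    hφ.comp_hasDerivAt_of_eq (0 : ℝ) c2 (by simp)
  have d3 := (d1.sub d2).div_const 2
  have h2 : HasDerivAt (fun w => DeF φ (x, w))
      ((fderiv ℝ φ (x, 0) (1 / 2, 1) - fderiv ℝ φ (x, 0) (-(1 / 2), 1)) / 2) 0 := d3
  rw [h1.unique h2, ← map_sub]
  have : ((1 / 2 : ℝ), (1 : ℝ)) - (-(1 / 2), 1) = (1, 0) := by
    ext <;> norm_num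
  rw [this]

end LineFam

/-- the chart `(x, w) ↦ (position, angle)` -/
noncomputable def Ph (φ : ℝ × ℝ → ℝ) (q : ℝ × ℝ) : ℝ × ℝ := (PsF φ q, DeF φ q)

theorem fderiv_per {f : ℝ × ℝ → ℝ} {c : ℝ} (hf : ∀ x w : ℝ, |w| < e → f (x + 1, w) = f (x, w) + c)
    {q : ℝ × ℝ} (hq : q ∈ St e) (hd : DifferentiableAt ℝ f (q.1 + 1, q.2)) :
    fderiv ℝ f (q.1 + 1, q.2) = fderiv ℝ f q := by
  have h1 : HasFDerivAt (fun q : ℝ × ℝ => (q.1 + 1, q.2)) (ContinuousLinearMap.id ℝ (ℝ × ℝ)) q := by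
    have := (hasFDerivAt_id (𝕜 := ℝ) q).add_const ((1 : ℝ), (0 : ℝ))
    refine this.congr_of_eventuallyEq (Eventually.of_forall fun q => ?_)
    ext <;> simp
  have h2 := (hd.hasFDerivAt).comp q h1
  have h3 : HasFDerivAt (fun q => f q + c) (fderiv ℝ f (q.1 + 1, q.2)) q := by
    have h4 : HasFDerivAt (f ∘ fun q : ℝ × ℝ => (q.1 + 1, q.2)) (fderiv ℝ f (q.1 + 1, q.2)) q := by
      simpa using h2
    refine h4.congr_of_eventuallyEq ?_
    filter_upwards [(isOpen_St e).mem_nhds hq] with q' hq'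
    exact (hf q'.1 q'.2 hq').symm
  have h5 : HasFDerivAt f (fderiv ℝ f (q.1 + 1, q.2)) q := by
    have := h3.sub_const c
    refine this.congr_of_eventuallyEq (Eventually.of_forall fun q => ?_)
    simp
  exact h5.fderiv.symm

/-- **the chart**: on a smaller strip the derivative of `Ph` is positive definite (not necessarily
symmetric), so `Ph` is injective and open. -/
theorem LineFam.chart (F : LineFam φ e) : ∃ ε : ℝ, 0 < ε ∧ ε ≤ e ∧
    (∀ q ∈ St ε, ∀ v : ℝ × ℝ, v ≠ 0 →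
      0 < fderiv ℝ (PsF φ) q v * v.1 + fderiv ℝ (DeF φ) q v * v.2) ∧
    (∀ q ∈ St ε, 0 < fderiv ℝ φ q (1, 0)) := by
  set A := fun q : ℝ × ℝ => fderiv ℝ (PsF φ) q (1, 0) with hA
  set B := fun q : ℝ × ℝ => fderiv ℝ (PsF φ) q (0, 1) with hB
  set C := fun q : ℝ × ℝ => fderiv ℝ (DeF φ) q (1, 0) with hC
  set D := fun q : ℝ × ℝ => fderiv ℝ (DeF φ) q (0, 1) with hD
  set E := fun q : ℝ × ℝ => fderiv ℝ φ q (1, 0) with hE
  have cont : ∀ {f : ℝ × ℝ → ℝ} (v : ℝ × ℝ), AnalyticOnNhd ℝ f (St e) →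
      ContinuousOn (fun q => fderiv ℝ f q v) (St e) := by
    intro f v hf
    exact (hf.fderiv.continuousOn).clm_apply continuousOn_const
  have cA : ContinuousOn A (St e) := cont _ F.anP
  have cB : ContinuousOn B (St e) := cont _ F.anP
  have cC : ContinuousOn C (St e) := cont _ F.anD
  have cD : ContinuousOn D (St e) := cont _ F.anD
  have cE : ContinuousOn E (St e) := cont _ F.an
  set U : Set (ℝ × ℝ) := St e ∩ {q | 0 < A q ∧ (B q + C q) ^ 2 < 4 * A q * D q ∧ 0 < E q} with hU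
  have hUo : IsOpen U := by
    have e1 : U = (St e ∩ A ⁻¹' Ioi 0) ∩ (St e ∩ (fun q => 4 * A q * D q - (B q + C q) ^ 2) ⁻¹' Ioi 0)
        ∩ (St e ∩ E ⁻¹' Ioi 0) := by
      ext q
      simp only [hU, mem_inter_iff, mem_setOf_eq, mem_preimage, mem_Ioi, sub_pos]
      tauto
    rw [e1]
    refine ((cA.isOpen_inter_preimage (isOpen_St e) isOpen_Ioi).inter ?_).inter
      (cE.isOpen_inter_preimage (isOpen_St e) isOpen_Ioi)
    refine ContinuousOn.isOpen_inter_preimage ?_ (isOpen_St e) isOpen_Ioi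
    fun_prop
  have hU0 : ∀ x : ℝ, (x, (0 : ℝ)) ∈ U := by
    intro x
    have h1 := F.pos x
    refine ⟨F.mem0 x, ?_, ?_, ?_⟩
    · simp only [hA, F.P_x]
      exact h1
    · simp only [hA, hB, hC, hD, F.P_x, F.P_w, F.D_x, F.D_w]
      have : 0 < fderiv ℝ φ (x, 0) (1, 0) * fderiv ℝ φ (x, 0) (1, 0) := mul_pos h1 h1
      ring_nf
      nlinarith
    · exact h1
  have hUp : ∀ x w : ℝ, (x, w) ∈ U ↔ (x + 1, w) ∈ U := by
    intro x w
    have hst : (x, w) ∈ St e ↔ (x + 1, w) ∈ St e := Iff.rfl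
    have key : (x, w) ∈ St e → A (x + 1, w) = A (x, w) ∧ B (x + 1, w) = B (x, w) ∧
        C (x + 1, w) = C (x, w) ∧ D (x + 1, w) = D (x, w) ∧ E (x + 1, w) = E (x, w) := by
      intro hq
      have k1 := fderiv_per (f := PsF φ) (c := 2 * Real.pi) (fun x w hw => F.perP hw) hq
        ((F.anP _ (hst.1 hq)).differentiableAt)
      have k2 := fderiv_per (f := DeF φ) (c := 0) (fun x w hw => by rw [F.perD hw, add_zero]) hq
        ((F.anD _ (hst.1 hq)).differentiableAt)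
      have k3 := fderiv_per (f := φ) (c := 2 * Real.pi) (fun x w hw => F.per x w hw) hq
        ((F.an _ (hst.1 hq)).differentiableAt)
      simp only [hA, hB, hC, hD, hE]
      simp only at k1 k2 k3
      rw [k1, k2, k3]
      exact ⟨rfl, rfl, rfl, rfl, rfl⟩
    constructor
    · rintro ⟨a, b⟩
      obtain ⟨k1, k2, k3, k4, k5⟩ := key a
      refine ⟨hst.1 a, ?_⟩
      simp only [mem_setOf_eq] at b ⊢
      rw [k1, k2, k3, k4, k5]
      exact b
    · rintro ⟨a, b⟩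
      obtain ⟨k1, k2, k3, k4, k5⟩ := key (hst.2 a)
      refine ⟨hst.2 a, ?_⟩
      simp only [mem_setOf_eq] at b ⊢
      rw [k1, k2, k3, k4, k5] at b
      exact b
  obtain ⟨ε, hε, hεU⟩ := exists_strip hUo hU0 hUp
  refine ⟨min ε e, lt_min hε F.he, min_le_right _ _, ?_, ?_⟩
  · intro q hq v hv
    obtain ⟨-, a1, a2, -⟩ := hεU (St_mono (min_le_left _ _) hq)
    have ev : v = v.1 • ((1 : ℝ), (0 : ℝ)) + v.2 • ((0 : ℝ), (1 : ℝ)) := by
      ext <;> simp
    have e1 : fderiv ℝ (PsF φ) q v = v.1 * A q + v.2 * B q := by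
      conv_lhs => rw [ev]
      rw [map_add, map_smul, map_smul]
      rfl
    have e2 : fderiv ℝ (DeF φ) q v = v.1 * C q + v.2 * D q := by
      conv_lhs => rw [ev]
      rw [map_add, map_smul, map_smul]
      rfl
    rw [e1, e2]
    have hv' : v.1 ≠ 0 ∨ v.2 ≠ 0 := by
      by_contra hcon
      push Not at hcon
      exact hv (by ext <;> simp [hcon.1, hcon.2])
    have hD0 : 0 < D q := by
      by_contra hcon
      push Not at hcon
      have : 4 * A q * D q ≤ 0 := mul_nonpos_of_nonneg_of_nonpos (by positivity) hcon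
      have := sq_nonneg (B q + C q)
      linarith
    have key : 0 < 4 * A q * ((v.1 * A q + v.2 * B q) * v.1 + (v.1 * C q + v.2 * D q) * v.2) := by
      have e3 : 4 * A q * ((v.1 * A q + v.2 * B q) * v.1 + (v.1 * C q + v.2 * D q) * v.2) =
          (2 * A q * v.1 + (B q + C q) * v.2) ^ 2 +
            (4 * A q * D q - (B q + C q) ^ 2) * v.2 ^ 2 := by ring
      rw [e3]
      by_cases h2 : v.2 = 0
      · have h1 : v.1 ≠ 0 := by
          rcases hv' with h | h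
          · exact h
          · exact absurd h2 h
        rw [h2]
        have : 0 < (2 * A q * v.1) ^ 2 := by positivity
        simpa using this
      · have h3 : 0 < v.2 ^ 2 := by positivity
        have h4 := sq_nonneg (2 * A q * v.1 + (B q + C q) * v.2)
        have h5 := mul_pos (sub_pos.2 a2) h3
        linarith
    exact (pos_iff_pos_of_mul_pos key).1 (by positivity)
  · intro q hq
    exact (hεU (St_mono (min_le_left _ _) hq)).2.2.2

end Vale.Agent.P097.H402
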