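import Vale.Agent.P097.H402.Twist

/-! # P097 / Theorem A, assembly (helper402): the inverse of the analytic chart, first integral -/

set_option linter.all false

namespace Vale.Agent.P097.H402

open Set Filter Topology

variable {φ : ℝ × ℝ → ℝ} {e : ℝ}

theorem St_segment {ε : ℝ} {q q' : ℝ × ℝ} (hq : q ∈ St ε) (hq' : q' ∈ St ε) {t : ℝ}
    (h0 : 0 ≤ t) (h1 : t ≤ 1) : q + t • (q' - q) ∈ St ε := by
  have := convex_St ε hq hq' (sub_nonneg.2 h1) h0 (by ring)
  have e : q + t • (q' - q) = (1 - t) • q + t • q' := by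
    rw [smul_sub, sub_smul, one_smul]
    abel
  rw [e]
  exact this

theorem Ph_hasStrictFDerivAt (F : LineFam φ e) {q : ℝ × ℝ} (hq : q ∈ St e) :
    HasStrictFDerivAt (Ph φ) ((fderiv ℝ (PsF φ) q).prod (fderiv ℝ (DeF φ) q)) q :=
  ((F.anP q hq).hasStrictFDerivAt).prodMk ((F.anD q hq).hasStrictFDerivAt)

theorem Ph_analytic (F : LineFam φ e) {q : ℝ × ℝ} (hq : q ∈ St e) : AnalyticAt ℝ (Ph φ) q :=
  (F.anP q hq).prod (F.anD q hq)

/-- the positivity property of the chart -/
def PD (φ : ℝ × ℝ → ℝ) (ε : ℝ) : Prop := ∀ q ∈ St ε, ∀ v : ℝ × ℝ, v ≠ 0 →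
  0 < fderiv ℝ (PsF φ) q v * v.1 + fderiv ℝ (DeF φ) q v * v.2

theorem Ph_injOn (F : LineFam φ e) {ε : ℝ} (hε : ε ≤ e) (hpd : PD φ ε) : InjOn (Ph φ) (St ε) := by
  intro q hq q' hq' heq
  by_contra hne
  set v := q' - q with hv
  have hv0 : v ≠ 0 := sub_ne_zero.2 (Ne.symm hne)
  have hP : PsF φ q = PsF φ q' := congrArg Prod.fst heq
  have hD : DeF φ q = DeF φ q' := congrArg Prod.snd heq
  set g : ℝ → ℝ := fun t => PsF φ (q + t • v) * v.1 + DeF φ (q + t • v) * v.2 with hg
  have hline : ∀ t : ℝ, HasDerivAt (fun t : ℝ => q + t • v) v t := by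
    intro t
    have := ((hasDerivAt_id t).smul_const v).const_add q
    simpa using this
  have hder : ∀ t ∈ Icc (0 : ℝ) 1, HasDerivAt g (fderiv ℝ (PsF φ) (q + t • v) v * v.1 +
      fderiv ℝ (DeF φ) (q + t • v) v * v.2) t := by
    intro t ht
    have hm : q + t • v ∈ St e := St_mono hε (St_segment hq hq' ht.1 ht.2)
    have d1 : HasDerivAt (fun t : ℝ => PsF φ (q + t • v)) (fderiv ℝ (PsF φ) (q + t • v) v) t :=
      HasFDerivAt.comp_hasDerivAt_of_eq t (F.anP _ hm).differentiableAt.hasFDerivAt (hline t) rfl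
    have d2 : HasDerivAt (fun t : ℝ => DeF φ (q + t • v)) (fderiv ℝ (DeF φ) (q + t • v) v) t :=
      HasFDerivAt.comp_hasDerivAt_of_eq t (F.anD _ hm).differentiableAt.hasFDerivAt (hline t) rfl
    exact (d1.mul_const v.1).add (d2.mul_const v.2)
  have h01 : g 0 = g 1 := by
    have e1 : q + (1 : ℝ) • v = q' := by rw [one_smul, hv]; abel
    simp only [hg, zero_smul, add_zero, e1, hP, hD]
  obtain ⟨c, hc, hc0⟩ := exists_hasDerivAt_eq_zero (f := g) (zero_lt_one)
    (fun t ht => (hder t ht).continuousAt.continuousWithinAt) h01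
    (fun t ht => hder t (Ioo_subset_Icc_self ht))
  have := hpd _ (St_segment hq hq' hc.1.le hc.2.le) v hv0
  rw [← hv] at this
  linarith

/-- the derivative as an equivalence -/
theorem exists_equiv (F : LineFam φ e) {ε : ℝ} (hε : ε ≤ e) (hpd : PD φ ε) {q : ℝ × ℝ}
    (hq : q ∈ St ε) : ∃ E : (ℝ × ℝ) ≃L[ℝ] (ℝ × ℝ),
      (E : (ℝ × ℝ) →L[ℝ] (ℝ × ℝ)) = (fderiv ℝ (PsF φ) q).prod (fderiv ℝ (DeF φ) q) := by
  set A := (fderiv ℝ (PsF φ) q).prod (fderiv ℝ (DeF φ) q) with hA
  have hinj : Function.Injective (A : (ℝ × ℝ) →ₗ[ℝ] (ℝ × ℝ)) := by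
    rw [injective_iff_map_eq_zero]
    intro v hv
    by_contra hne
    have := hpd q hq v hne
    have h1 : fderiv ℝ (PsF φ) q v = 0 := congrArg Prod.fst hv
    have h2 : fderiv ℝ (DeF φ) q v = 0 := congrArg Prod.snd hv
    rw [h1, h2] at this
    simp at this
  refine ⟨(LinearEquiv.ofInjectiveEndo _ hinj).toContinuousLinearEquiv, ?_⟩
  apply ContinuousLinearMap.ext
  intro v
  rfl

/-- **the inverse chart** -/
theorem exists_inverse (F : LineFam φ e) {ε : ℝ} (hε0 : 0 < ε) (hε : ε ≤ e) (hpd : PD φ ε) :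
    ∃ (η : ℝ) (J : ℝ × ℝ → ℝ × ℝ), 0 < η ∧ AnalyticOnNhd ℝ J (St η) ∧
      (∀ p ∈ St η, J p ∈ St ε ∧ Ph φ (J p) = p) ∧
      (∀ q ∈ St ε, J (Ph φ q) = q) := by
  have hinj := Ph_injOn F hε hpd
  set J := Function.invFunOn (Ph φ) (St ε) with hJ
  have hJ1 : ∀ q ∈ St ε, J (Ph φ q) = q := fun q hq => hinj.leftInvOn_invFunOn hq
  set U := Ph φ '' St ε with hU
  have hJ2 : ∀ p ∈ U, J p ∈ St ε ∧ Ph φ (J p) = p := by
    rintro p ⟨q, hq, rfl⟩
    rw [hJ1 q hq]
    exact ⟨hq, rfl⟩
  have hopen : IsOpen U := by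
    rw [isOpen_iff_mem_nhds]
    rintro p ⟨q, hq, rfl⟩
    obtain ⟨E, hE⟩ := exists_equiv F hε hpd hq
    have hs := Ph_hasStrictFDerivAt F (St_mono hε hq)
    rw [← hE] at hs
    rw [← hs.map_nhds_eq_of_equiv]
    exact image_mem_map ((isOpen_St ε).mem_nhds hq)
  have han : ∀ p ∈ U, AnalyticAt ℝ J p := by
    rintro p ⟨q, hq, rfl⟩
    obtain ⟨E, hE⟩ := exists_equiv F hε hpd hq
    have hs := Ph_hasStrictFDerivAt F (St_mono hε hq)
    rw [← hE] at hs
    set R := hs.toOpenPartialHomeomorph (Ph φ) with hR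
    have hqR : q ∈ R.source := hs.mem_toOpenPartialHomeomorph_source
    have hRc : (R : ℝ × ℝ → ℝ × ℝ) = Ph φ := rfl
    have h1 : AnalyticAt ℝ R.symm (R q) := by
      apply R.analyticAt_symm' hqR (Ph_analytic F (St_mono hε hq)) (i := E)
      rw [hRc]
      exact hs.hasFDerivAt.fderiv
    have h2 : R.symm =ᶠ[𝓝 (Ph φ q)] J := by
      have h3 : ContinuousAt R.symm (Ph φ q) := h1.continuousAt
      have h4 : R.symm (Ph φ q) = q := R.left_inv hqR
      have h5 : ∀ᶠ p in 𝓝 (Ph φ q), R.symm p ∈ St ε :=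
        h3.eventually (by rw [h4]; exact (isOpen_St ε).mem_nhds hq)
      have h6 : ∀ᶠ p in 𝓝 (Ph φ q), p ∈ R.target := R.open_target.mem_nhds (R.map_source hqR)
      filter_upwards [h5, h6] with p hp1 hp2
      have h7 : Ph φ (R.symm p) = p := R.right_inv hp2
      rw [← hJ1 _ hp1, h7]
    exact h1.congr h2
  -- the strip in the image
  have hcover : ∃ η > 0, St η ⊆ U := by
    -- use the translation invariance after rescaling the first coordinate
    have hc : Continuous (fun q : ℝ × ℝ => (2 * Real.pi * q.1, q.2)) := by fun_prop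
    have hsurj : ∀ y : ℝ, (y, (0 : ℝ)) ∈ U := by
      intro y
      have hcont : Continuous (fun x : ℝ => φ (x, 0)) := by
        rw [continuous_iff_continuousAt]
        intro x
        exact (LineFam.hasDerivAt_x (F.dφ x)).continuousAt
      have hs : ∃ x, φ (x, 0) = y := by
        have hup : ∀ n : ℕ, φ ((n : ℝ), 0) = φ (0, 0) + n * (2 * Real.pi) := by
          intro n
          induction n with
          | zero => simp
          | succ n ih =>
            push_cast
            rw [F.per _ _ (by rw [abs_zero]; exact F.he), ih]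
            ring
        have hdn : ∀ n : ℕ, φ (-(n : ℝ), 0) = φ (0, 0) - n * (2 * Real.pi) := by
          intro n
          induction n with
          | zero => simp
          | succ n ih =>
            have := F.per (-((n + 1 : ℕ) : ℝ)) 0 (by rw [abs_zero]; exact F.he)
            have e1 : -((n + 1 : ℕ) : ℝ) + 1 = -(n : ℝ) := by push_cast; ring
            rw [e1, ih] at this
            push_cast at this ⊢
            linarith
        obtain ⟨n, hn⟩ := exists_nat_gt (|y - φ (0, 0)| / (2 * Real.pi))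
        rw [div_lt_iff₀ (by positivity)] at hn
        have hab := abs_le.1 hn.le
        have hnn : (0 : ℝ) ≤ n := Nat.cast_nonneg n
        have hmem : y ∈ Icc (φ (-(n : ℝ), 0)) (φ ((n : ℝ), 0)) := by
          rw [hdn, hup]
          constructor <;> linarith [hab.1, hab.2]
        obtain ⟨x, -, hx⟩ := intermediate_value_Icc (f := fun x : ℝ => φ (x, 0))
          (show -(n : ℝ) ≤ n by linarith) hcont.continuousOn hmem
        exact ⟨x, hx⟩
      obtain ⟨x, hx⟩ := hs
      refine ⟨(x, 0), ?_, ?_⟩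
      · show |(0 : ℝ)| < ε
        rw [abs_zero]
        exact hε0
      · simp only [Ph, LineFam.P0, LineFam.D0, hx]
    have hper : ∀ x w : ℝ, (x, w) ∈ U ↔ (x + 2 * Real.pi, w) ∈ U := by
      intro x w
      constructor
      · rintro ⟨⟨a, b⟩, hq, hqe⟩
        refine ⟨(a + 1, b), hq, ?_⟩
        have hb : |b| < e := lt_of_lt_of_le hq hε
        have h1 : PsF φ (a, b) = x := congrArg Prod.fst hqe
        have h2 : DeF φ (a, b) = w := congrArg Prod.snd hqe
        simp only [Ph, F.perP hb, F.perD hb, h1, h2]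
      · rintro ⟨⟨a, b⟩, hq, hqe⟩
        refine ⟨(a - 1, b), hq, ?_⟩
        have hb : |b| < e := lt_of_lt_of_le hq hε
        have h1 : PsF φ (a, b) = x + 2 * Real.pi := congrArg Prod.fst hqe
        have h2 : DeF φ (a, b) = w := congrArg Prod.snd hqe
        have h3 := F.perP (x := a - 1) hb
        have h4 := F.perD (x := a - 1) hb
        rw [sub_add_cancel] at h3 h4
        have h5 : PsF φ (a - 1, b) = x := by linarith
        have h6 : DeF φ (a - 1, b) = w := by rw [← h4, h2]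
        simp only [Ph, h5, h6]
    obtain ⟨η, hη, hsub⟩ := exists_strip (U := (fun q : ℝ × ℝ => (2 * Real.pi * q.1, q.2)) ⁻¹' U)
      (hopen.preimage hc) (fun x => hsurj _) (fun x w => by
        simp only [mem_preimage]
        rw [hper]
        have : 2 * Real.pi * x + 2 * Real.pi = 2 * Real.pi * (x + 1) := by ring
        rw [this])
    refine ⟨η, hη, ?_⟩
    rintro ⟨y, w⟩ hq
    have h1 : (y / (2 * Real.pi), w) ∈ St η := hq
    have := hsub h1
    simp only [mem_preimage] at this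
    have e1 : 2 * Real.pi * (y / (2 * Real.pi)) = y := by field_simp
    rwa [e1] at this
  obtain ⟨η, hη, hsub⟩ := hcover
  exact ⟨η, J, hη, fun p hp => han p (hsub hp), fun p hp => hJ2 p (hsub hp), hJ1⟩

end Vale.Agent.P097.H402
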